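import Mathlib

namespace Vale.Agent.P002

theorem lattice_split {B : Type} [AddCommGroup B] [Module.Finite ℤ B] (C : Submodule ℤ B) :
    ∃ (k : ℕ) (p : B →ₗ[ℤ] (Fin k → ℤ)) (z : Fin k → B) (e : ℕ), 0 < e ∧ (∀ b ∈ C, p b = 0) ∧
      (∀ j, p (z j) = Pi.single j 1) ∧ (∀ b, p b = 0 → (e : ℤ) • b ∈ C) := by
  classical
  let P := B ⧸ C
  let T := Submodule.torsion ℤ P
  have hTfin : Finite T := by
    have : Module.Finite ℤ T := inferInstance
    exact Module.finite_of_fg_torsion T (Submodule.torsion_isTorsion)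
  have hfree : Module.Free ℤ (P ⧸ T) := inferInstance
  let w := Module.finBasis ℤ (P ⧸ T)
  let p : B →ₗ[ℤ] (Fin (Module.finrank ℤ (P ⧸ T)) → ℤ) :=
    w.equivFun.toLinearMap ∘ₗ T.mkQ ∘ₗ C.mkQ
  have hsurj : Function.Surjective p := by
    refine w.equivFun.surjective.comp (T.mkQ_surjective.comp C.mkQ_surjective)
  choose z hz using fun j : Fin (Module.finrank ℤ (P ⧸ T)) => hsurj (Pi.single j 1)
  refine ⟨_, p, z, Nat.card T, Nat.card_pos, ?_, hz, ?_⟩
  · intro b hb
    have h1 : C.mkQ b = 0 := by simpa using hb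
    simp only [p, LinearMap.comp_apply, h1, map_zero]
  · intro b hb
    have h1 : T.mkQ (C.mkQ b) = 0 := by
      have : w.equivFun (T.mkQ (C.mkQ b)) = 0 := hb
      exact (LinearEquiv.map_eq_zero_iff _).1 this
    have h2 : C.mkQ b ∈ T := by simpa using h1
    have h3 : (Nat.card T) • (⟨C.mkQ b, h2⟩ : T) = 0 := card_nsmul_eq_zero'
    have h4 : (Nat.card T) • C.mkQ b = 0 := by
      have := congrArg (fun t : T => (t : P)) h3
      simpa using this
    have h5 : C.mkQ ((Nat.card T : ℤ) • b) = 0 := by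
      rw [map_smul]
      rw [natCast_zsmul]
      exact h4
    exact (Submodule.Quotient.mk_eq_zero C).1 h5

end Vale.Agent.P002
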