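import Vale.Agent.P002.Main
import Vale.Agent.P002.Lat

/-! Abelian groups with prescribed quasi-unipotent boundary classes: tools. -/

namespace Vale.Agent.P002

open Matrix

theorem powvec {m : Type} [Fintype m] [DecidableEq m] (B : Matrix m m ℂ) (v : m → ℂ) (d : ℂ)
    (h : B *ᵥ v = d • v) (k : ℕ) : (B ^ k) *ᵥ v = d ^ k • v := by
  induction k with
  | zero => simp
  | succ k ih => rw [pow_succ, ← Matrix.mulVec_mulVec, h, Matrix.mulVec_smul, ih, smul_smul,
      pow_succ, mul_comm]

theorem eig_root {r : ℕ} {D : Fin r → ℂˣ} {c : SpecialLinearGroup (Fin r) ℂ} {Q : GL (Fin r) ℂ}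
    (h : SpecialLinearGroup.toGL c = Q * dg D * Q⁻¹) {M : ℕ}
    (hc : IsNilpotent ((c : Matrix (Fin r) (Fin r) ℂ) ^ M - 1)) (y : Fin r) : (D y) ^ M = 1 := by
  obtain ⟨k, hk⟩ := hc
  let v : Fin r → ℂ := Q.1 *ᵥ (Pi.single y 1)
  have hv : (c : Matrix (Fin r) (Fin r) ℂ) *ᵥ v = ((D y : ℂˣ) : ℂ) • v := by
    have h1 : (SpecialLinearGroup.toGL c * Q : GL (Fin r) ℂ) = Q * dg D := by
      rw [h]; group
    have h2 := congrArg (fun g : GL (Fin r) ℂ => g.1 *ᵥ (Pi.single y 1 : Fin r → ℂ)) h1
    simp only [Units.val_mul, ← Matrix.mulVec_mulVec] at h2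
    have h3 : (dg D).1 *ᵥ (Pi.single y 1 : Fin r → ℂ) = ((D y : ℂˣ) : ℂ) • (Pi.single y 1) := by
      rw [dg_val]
      funext x
      rw [Matrix.mulVec_diagonal]
      by_cases hx : x = y
      · subst hx; simp
      · simp [Pi.single_eq_of_ne hx]
    rw [h3, Matrix.mulVec_smul] at h2
    exact h2
  have hv0 : v ≠ 0 := by
    intro h0
    have h1 : (Q⁻¹).1 *ᵥ v = Pi.single y 1 := by
      simp only [v]
      rw [Matrix.mulVec_mulVec, ← Units.val_mul, inv_mul_cancel, Units.val_one, Matrix.one_mulVec]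
    rw [h0, Matrix.mulVec_zero] at h1
    have := congrFun h1 y
    simp at this
  have h1 : ((c : Matrix (Fin r) (Fin r) ℂ) ^ M - 1) *ᵥ v = (((D y : ℂˣ) : ℂ) ^ M - 1) • v := by
    rw [Matrix.sub_mulVec, Matrix.one_mulVec, powvec _ _ _ hv, sub_smul, one_smul]
  have h2 := powvec _ _ _ h1 k
  rw [hk, Matrix.zero_mulVec] at h2
  have h3 : (((D y : ℂˣ) : ℂ) ^ M - 1) ^ k = 0 := by
    by_contra hne
    exact (smul_ne_zero hne hv0) h2.symm
  have h4 : ((D y : ℂˣ) : ℂ) ^ M - 1 = 0 := by
    by_contra hne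
    exact pow_ne_zero k hne h3
  apply Units.ext
  rw [Units.val_pow_eq_pow_val, Units.val_one]
  exact sub_eq_zero.1 h4

/-- diagonalisation of semisimple representations of abelian groups -/
theorem diag_ss {Γ : Type} [CommGroup Γ] {r : ℕ} (ρ : Γ →* SpecialLinearGroup (Fin r) ℂ)
    (hρ : Semisimple ρ) : ∃ (Q : GL (Fin r) ℂ) (χ : Fin r → Γ →* ℂˣ),
      ∀ γ, SpecialLinearGroup.toGL (ρ γ) = Q * dg (fun y => χ y γ) * Q⁻¹ := by
  classical
  obtain ⟨s, a, h, σ, Q, hirr, hQ⟩ := semisimple_decomp ρ hρ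
  have hsub : ∀ i, ∀ x y : Fin (a i), x = y := fun i => irr_comm (σ i) (hirr i)
  have hmul : ∀ i (k : Fin (a i)) (M M' : Matrix (Fin (a i)) (Fin (a i)) ℂ),
      (M * M') k k = M k k * M' k k := by
    intro i k M M'
    rw [Matrix.mul_apply, Finset.sum_eq_single k]
    · intro b _ hb
      exact absurd (hsub i b k) hb
    · intro hk
      exact absurd (Finset.mem_univ k) hk
  let χ : Fin r → Γ →* ℂˣ := fun y =>
    { toFun := fun γ =>
        ⟨(σ (h.symm y).1 γ).1 (h.symm y).2 (h.symm y).2,
          (σ (h.symm y).1 γ)⁻¹.1 (h.symm y).2 (h.symm y).2,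
          by rw [← hmul, ← Units.val_mul, mul_inv_cancel, Units.val_one, Matrix.one_apply_eq],
          by rw [← hmul, ← Units.val_mul, inv_mul_cancel, Units.val_one, Matrix.one_apply_eq]⟩
      map_one' := by
        apply Units.ext
        simp
      map_mul' := by
        intro γ δ
        apply Units.ext
        simp only [map_mul, Units.val_mul, hmul] }
  refine ⟨Q, χ, fun γ => ?_⟩
  rw [hQ γ]
  congr 2
  apply Units.ext
  ext x y
  rw [bg_val, blockDiagonal'_apply, dg_val]
  by_cases hxy : x = y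
  · subst hxy
    rw [dif_pos rfl, diagonal_apply_eq]
    rfl
  · rw [diagonal_apply_ne _ hxy]
    split_ifs with h1
    · exfalso
      apply hxy
      apply h.symm.injective
      exact Sigma.ext h1 (by
        have := hsub (h.symm y).1 (cast (by rw [h1]) (h.symm x).2) (h.symm y).2
        rw [← this]
        exact (cast_heq _ _).symm)
    · rfl

/-- representations by diagonal matrices are semisimple -/
theorem semisimple_diag {Γ : Type} [Group Γ] {r : ℕ} (ρ : Γ →* SpecialLinearGroup (Fin r) ℂ)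
    (f : Γ → Fin r → ℂ) (hf : ∀ γ, (ρ γ : Matrix (Fin r) (Fin r) ℂ) = diagonal (f γ)) :
    Semisimple ρ := by
  classical
  intro T _
  let E : Finset (Fin r) → Submodule ℂ (Fin r → ℂ) := fun S =>
    Submodule.span ℂ ((fun y => (Pi.single y 1 : Fin r → ℂ)) '' (S : Set (Fin r)))
  obtain ⟨S, hS, hmax⟩ : ∃ S : Finset (Fin r), Disjoint T (E S) ∧
      ∀ S', Disjoint T (E S') → S'.card ≤ S.card := by
    have hne : (Finset.univ.filter fun S : Finset (Fin r) => Disjoint T (E S)).Nonempty :=
      ⟨∅, by simp [E]⟩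
    obtain ⟨S, hS, hmax⟩ := Finset.exists_max_image _ (fun S => S.card) hne
    refine ⟨S, (Finset.mem_filter.1 hS).2, fun S' hS' => ?_⟩
    exact hmax S' (Finset.mem_filter.2 ⟨Finset.mem_univ _, hS'⟩)
  refine ⟨E S, ?_, hS, ?_⟩
  · intro γ v hv
    rw [hf γ]
    induction hv using Submodule.span_induction with
    | mem v hv =>
      obtain ⟨y, hy, rfl⟩ := hv
      have : diagonal (f γ) *ᵥ (Pi.single y 1 : Fin r → ℂ) = f γ y • (Pi.single y 1) := by
        funext x
        rw [Matrix.mulVec_diagonal]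
        by_cases hx : x = y
        · subst hx; simp
        · simp [Pi.single_eq_of_ne hx]
      dsimp only
      rw [this]
      exact Submodule.smul_mem _ _ (Submodule.subset_span ⟨y, hy, rfl⟩)
    | zero => rw [Matrix.mulVec_zero]; exact Submodule.zero_mem _
    | add x y _ _ h1 h2 => rw [Matrix.mulVec_add]; exact Submodule.add_mem _ h1 h2
    | smul c x _ h1 => rw [Matrix.mulVec_smul]; exact Submodule.smul_mem _ _ h1
  · rw [codisjoint_iff]
    by_contra htop
    -- some basis vector is missing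
    obtain ⟨y, hy⟩ : ∃ y, (Pi.single y 1 : Fin r → ℂ) ∉ T ⊔ E S := by
      by_contra hall
      push Not at hall
      apply htop
      rw [eq_top_iff]
      intro v _
      have : v = ∑ y, v y • (Pi.single y 1 : Fin r → ℂ) := by
        funext x
        simp [Finset.sum_apply, Pi.single_apply]
      rw [this]
      exact Submodule.sum_mem _ fun y _ => Submodule.smul_mem _ _ (hall y)
    have hyS : y ∉ S := by
      intro h
      exact hy (Submodule.mem_sup_right (Submodule.subset_span ⟨y, h, rfl⟩))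
    have hdis : Disjoint T (E (insert y S)) := by
      rw [Submodule.disjoint_def]
      intro v hvT hvE
      have hE : E (insert y S) = Submodule.span ℂ {(Pi.single y 1 : Fin r → ℂ)} ⊔ E S := by
        simp only [E, Finset.coe_insert, Set.image_insert_eq, Submodule.span_insert]
      rw [hE] at hvE
      obtain ⟨u, hu, w, hw, rfl⟩ := Submodule.mem_sup.1 hvE
      obtain ⟨c, rfl⟩ := Submodule.mem_span_singleton.1 hu
      by_cases hc : c = 0
      · subst hc
        rw [zero_smul, zero_add] at hvT ⊢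
        exact (Submodule.disjoint_def.1 hS) w hvT hw
      · exfalso
        apply hy
        have : (Pi.single y 1 : Fin r → ℂ) = c⁻¹ • ((c • (Pi.single y 1 : Fin r → ℂ) + w) - w) := by
          rw [add_sub_cancel_right, smul_smul, inv_mul_cancel₀ hc, one_smul]
        rw [this]
        exact Submodule.smul_mem _ _ (Submodule.sub_mem _ (Submodule.mem_sup_left hvT)
          (Submodule.mem_sup_right hw))
    have := hmax _ hdis
    rw [Finset.card_insert_of_notMem hyS] at this
    omega

end Vale.Agent.P002
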