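import Vale.Agent.P002.Core

/-! Base case: free groups. -/

namespace Vale.Agent.P002

open Matrix

/-- integral elements of L -/
noncomputable def OO (L : IntermediateField ℚ ℂ) : Subring ℂ := (integralClosure ℤ ℂ).toSubring ⊓ L.toSubfield.toSubring

theorem mem_OO {L : IntermediateField ℚ ℂ} {z : ℂ} : z ∈ OO L ↔ IsIntegral ℤ z ∧ z ∈ L := Iff.rfl

abbrev Reps (Γ : Type) [Group Γ] {ι : Type} (n : ι → Type) [∀ i, Fintype (n i)]
    [∀ i, DecidableEq (n i)] := (i : ι) → Γ →* GL (n i) ℂ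

section

variable (Γ : Type) [Group Γ] {ι : Type} (n : ι → Type) [∀ i, Fintype (n i)]
    [∀ i, DecidableEq (n i)]

/-- entry functions -/
def gens : Set (Reps Γ n → ℂ) := {F | ∃ i γ x y, F = fun ρ => (ρ i γ).1 x y}

def Reg : Subalgebra ℂ (Reps Γ n → ℂ) := Algebra.adjoin ℂ (gens Γ n)

variable {Γ n}

def ZZ [Fintype ι] (e : ι → ℕ) (ρ : Reps Γ n) : Prop := ∀ γ, ∏ i, (ρ i γ).1.det ^ e i = 1

def Intg (L : IntermediateField ℚ ℂ) (ρ : Reps Γ n) : Prop :=
  ∀ i γ x y, (ρ i γ).1 x y ∈ OO L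

end

/-- what is needed of the number field -/
structure Good (N : ℕ) (L : IntermediateField ℚ ℂ) : Prop where
  root : ∀ (z : ℂ) (m : ℕ), 0 < m → m ≤ N → z ^ m = 1 → z ∈ L
  unit : ∃ u : ℂˣ, (u : ℂ) ∈ OO L ∧ ((u⁻¹ : ℂˣ) : ℂ) ∈ OO L ∧ Function.Injective (fun m : ℕ => u ^ m)

section

variable {ι α : Type} [Fintype ι] [DecidableEq ι] [Fintype α] [DecidableEq α]
  (n : ι → Type) [∀ i, Fintype (n i)] [∀ i, DecidableEq (n i)]

abbrev GG (ι α : Type) (n : ι → Type) [∀ i, Fintype (n i)] [∀ i, DecidableEq (n i)] :=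
  (k : ι × α) → GL (n k.1) ℂ

def TT : Set (GG ι α n → ℂ) := {F | (∃ (k : ι × α) (x y : n k.1), F = fun g => (g k).1 x y) ∨
  (∃ (k : ι × α) (x y : n k.1), F = fun g => ((g k)⁻¹).1 x y)}

variable {n}

theorem TT_ent (k : ι × α) (x y : n k.1) :
    (fun g : GG ι α n => (g k).1 x y) ∈ Algebra.adjoin ℂ (TT (ι := ι) (α := α) n) :=
  Algebra.subset_adjoin (show _ ∈ TT (ι := ι) (α := α) n from Or.inl ⟨k, x, y, rfl⟩)

theorem TT_inv (k : ι × α) (x y : n k.1) :
    (fun g : GG ι α n => ((g k)⁻¹).1 x y) ∈ Algebra.adjoin ℂ (TT (ι := ι) (α := α) n) :=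
  Algebra.subset_adjoin (show _ ∈ TT (ι := ι) (α := α) n from Or.inr ⟨k, x, y, rfl⟩)

theorem TT_L : ∀ F ∈ Algebra.adjoin ℂ (TT (ι := ι) (α := α) n), ∀ g : GG ι α n,
    (fun x => F (g * x)) ∈ Algebra.adjoin ℂ (TT (ι := ι) (α := α) n) := by
  intro F hF g
  induction hF using Algebra.adjoin_induction with
  | mem F hF =>
    rcases hF with ⟨k, x, y, rfl⟩ | ⟨k, x, y, rfl⟩
    · have : (fun h : GG ι α n => ((g * h) k).1 x y) =
          ∑ z, (g k).1 x z • (fun h : GG ι α n => (h k).1 z y) := by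
        funext h
        simp [Matrix.mul_apply, Finset.sum_apply]
      rw [this]
      exact Subalgebra.sum_mem _ fun z _ => Subalgebra.smul_mem _
        (TT_ent k z y) _
    · have : (fun h : GG ι α n => (((g * h) k)⁻¹).1 x y) =
          ∑ z, ((g k)⁻¹).1 z y • (fun h : GG ι α n => ((h k)⁻¹).1 x z) := by
        funext h
        rw [Pi.mul_apply, _root_.mul_inv_rev]
        simp only [Units.val_mul, Matrix.mul_apply, Finset.sum_apply, Pi.smul_apply, smul_eq_mul]
        exact Finset.sum_congr rfl fun z _ => mul_comm _ _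
      rw [this]
      exact Subalgebra.sum_mem _ fun z _ => Subalgebra.smul_mem _
        (TT_inv k x z) _
  | algebraMap r => exact Subalgebra.algebraMap_mem _ r
  | add x y _ _ h1 h2 => exact Subalgebra.add_mem _ h1 h2
  | mul x y _ _ h1 h2 => exact Subalgebra.mul_mem _ h1 h2

theorem TT_R : ∀ F ∈ Algebra.adjoin ℂ (TT (ι := ι) (α := α) n), ∀ g : GG ι α n,
    (fun x => F (x * g)) ∈ Algebra.adjoin ℂ (TT (ι := ι) (α := α) n) := by
  intro F hF g
  induction hF using Algebra.adjoin_induction with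
  | mem F hF =>
    rcases hF with ⟨k, x, y, rfl⟩ | ⟨k, x, y, rfl⟩
    · have : (fun h : GG ι α n => ((h * g) k).1 x y) =
          ∑ z, (g k).1 z y • (fun h : GG ι α n => (h k).1 x z) := by
        funext h
        simp only [Pi.mul_apply, Units.val_mul, Matrix.mul_apply, Finset.sum_apply, Pi.smul_apply,
          smul_eq_mul]
        exact Finset.sum_congr rfl fun z _ => mul_comm _ _
      rw [this]
      exact Subalgebra.sum_mem _ fun z _ => Subalgebra.smul_mem _
        (TT_ent k x z) _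
    · have : (fun h : GG ι α n => (((h * g) k)⁻¹).1 x y) =
          ∑ z, ((g k)⁻¹).1 x z • (fun h : GG ι α n => ((h k)⁻¹).1 z y) := by
        funext h
        rw [Pi.mul_apply, _root_.mul_inv_rev]
        simp only [Units.val_mul, Matrix.mul_apply, Finset.sum_apply, Pi.smul_apply, smul_eq_mul]
      rw [this]
      exact Subalgebra.sum_mem _ fun z _ => Subalgebra.smul_mem _
        (TT_inv k z y) _
  | algebraMap r => exact Subalgebra.algebraMap_mem _ r
  | add x y _ _ h1 h2 => exact Subalgebra.add_mem _ h1 h2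
  | mul x y _ _ h1 h2 => exact Subalgebra.mul_mem _ h1 h2

theorem mat_mul_mem {L : IntermediateField ℚ ℂ} {m : Type} [Fintype m] {A B : Matrix m m ℂ}
    (hA : ∀ x y, A x y ∈ OO L) (hB : ∀ x y, B x y ∈ OO L) (x y : m) : (A * B) x y ∈ OO L := by
  rw [Matrix.mul_apply]
  exact Subring.sum_mem _ fun z _ => Subring.mul_mem _ (hA x z) (hB z y)

theorem mat_one_mem {L : IntermediateField ℚ ℂ} {m : Type} [Fintype m] [DecidableEq m]
    (x y : m) : (1 : Matrix m m ℂ) x y ∈ OO L := by
  rw [Matrix.one_apply]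
  split_ifs
  · exact Subring.one_mem _
  · exact Subring.zero_mem _

/-- integral points of the relation group -/
def HH (L : IntermediateField ℚ ℂ) (e : ι → ℕ) : Submonoid (GG ι α n) where
  carrier := {h | (∀ k x y, (h k).1 x y ∈ OO L) ∧ (∀ k x y, ((h k)⁻¹).1 x y ∈ OO L) ∧
    ∀ a, ∏ i, (h (i, a)).1.det ^ e i = 1}
  one_mem' := by
    refine ⟨fun k x y => ?_, fun k x y => ?_, fun a => ?_⟩
    · simpa using mat_one_mem x y
    · simpa using mat_one_mem x y
    · simp
  mul_mem' := by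
    rintro g h ⟨g1, g2, g3⟩ ⟨h1, h2, h3⟩
    refine ⟨fun k x y => ?_, fun k x y => ?_, fun a => ?_⟩
    · simpa using mat_mul_mem (g1 k) (h1 k) x y
    · have := mat_mul_mem (h2 k) (g2 k) x y
      simpa [_root_.mul_inv_rev] using this
    · simp only [Pi.mul_apply, Units.val_mul, Matrix.det_mul, mul_pow, Finset.prod_mul_distrib]
      rw [g3 a, h3 a, one_mul]

/-- transvection as an element of GL -/
def tv {m : Type} [Fintype m] [DecidableEq m] (i j : m) (hij : i ≠ j) (s : ℂ) : GL m ℂ where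
  val := transvection i j s
  inv := transvection i j (-s)
  val_inv := by rw [transvection_mul_transvection_same _ _ hij]; simp
  inv_val := by rw [transvection_mul_transvection_same _ _ hij]; simp

theorem tv_inv {m : Type} [Fintype m] [DecidableEq m] (i j : m) (hij : i ≠ j) (s : ℂ) :
    ((tv i j hij s)⁻¹ : GL m ℂ).1 = transvection i j (-s) := rfl

theorem tv_val {m : Type} [Fintype m] [DecidableEq m] (i j : m) (hij : i ≠ j) (s : ℂ) :
    (tv i j hij s).1 = transvection i j s := rfl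

theorem transvection_entry {m : Type} [DecidableEq m] (i j x y : m) (s : ℂ) :
    transvection i j s x y = (1 : Matrix m m ℂ) x y + if i = x ∧ j = y then s else 0 := by
  simp [transvection, Matrix.single_apply]

theorem Lau_tv (k : ι × α) (i j : n k.1) (hij : i ≠ j) (F : GG ι α n → ℂ)
    (hF : F ∈ TT (ι := ι) (α := α) n) :
    Lau (fun s : ℂˣ => (Pi.mulSingle k (tv i j hij (s : ℂ)) : GG ι α n)) F := by
  rcases hF with ⟨k', x, y, rfl⟩ | ⟨k', x, y, rfl⟩
  · by_cases hk : k' = k
    · subst hk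
      refine ⟨Polynomial.C ((1 : Matrix (n k'.1) (n k'.1) ℂ) x y) +
        (if i = x ∧ j = y then Polynomial.X else 0), 0, fun s => ?_⟩
      dsimp only
      rw [Pi.mulSingle_eq_same, tv_val, transvection_entry]
      split_ifs <;> simp
    · apply Lau.const _ _ ((1 : Matrix (n k'.1) (n k'.1) ℂ) x y)
      intro s
      rw [Pi.mulSingle_eq_of_ne hk]
      simp
  · by_cases hk : k' = k
    · subst hk
      refine ⟨Polynomial.C ((1 : Matrix (n k'.1) (n k'.1) ℂ) x y) +
        (if i = x ∧ j = y then -Polynomial.X else 0), 0, fun s => ?_⟩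
      dsimp only
      rw [Pi.mulSingle_eq_same, tv_inv, transvection_entry]
      split_ifs <;> simp
    · apply Lau.const _ _ ((1 : Matrix (n k'.1) (n k'.1) ℂ) x y)
      intro s
      rw [Pi.mulSingle_eq_of_ne hk]
      simp

theorem tv_mem_HH (L : IntermediateField ℚ ℂ) (e : ι → ℕ) (k : ι × α) (i j : n k.1)
    (hij : i ≠ j) (s : ℂ) (hs : s ∈ OO L) :
    (Pi.mulSingle k (tv i j hij s) : GG ι α n) ∈ HH (ι := ι) (α := α) (n := n) L e := by
  refine ⟨fun k' x y => ?_, fun k' x y => ?_, fun a => ?_⟩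
  · by_cases hk : k' = k
    · subst hk
      rw [Pi.mulSingle_eq_same, tv_val, transvection_entry]
      refine Subring.add_mem _ (mat_one_mem x y) ?_
      split_ifs
      · exact hs
      · exact Subring.zero_mem _
    · rw [Pi.mulSingle_eq_of_ne hk]
      exact mat_one_mem x y
  · by_cases hk : k' = k
    · subst hk
      rw [Pi.mulSingle_eq_same, tv_inv, transvection_entry]
      refine Subring.add_mem _ (mat_one_mem x y) ?_
      split_ifs
      · exact Subring.neg_mem _ hs
      · exact Subring.zero_mem _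
    · rw [Pi.mulSingle_eq_of_ne hk, inv_one]
      exact mat_one_mem x y
  · apply Finset.prod_eq_one
    intro i' _
    by_cases hk : (i', a) = k
    · subst hk
      rw [Pi.mulSingle_eq_same, tv_val, det_transvection_of_ne _ _ hij, one_pow]
    · rw [Pi.mulSingle_eq_of_ne hk]
      simp

theorem tv_mem_clos (L : IntermediateField ℚ ℂ) (e : ι → ℕ) (k : ι × α) (i j : n k.1)
    (hij : i ≠ j) (s : ℂ) :
    (Pi.mulSingle k (tv i j hij s) : GG ι α n) ∈
      clos (Algebra.adjoin ℂ (TT n)) (HH (ι := ι) (α := α) (n := n) L e) TT_L TT_R := by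
  by_cases hs : s = 0
  · subst hs
    apply le_clos
    exact tv_mem_HH L e k i j hij 0 (Subring.zero_mem _)
  · have := one_param (H := HH (ι := ι) (α := α) (n := n) L e) (hL := TT_L) (hR := TT_R)
      (fun s : ℂˣ => (Pi.mulSingle k (tv i j hij (s : ℂ)) : GG ι α n))
      (Lau_tv k i j hij) ?_ (Units.mk0 s hs)
    · simpa using this
    · refine Set.infinite_of_injective_forall_mem
        (f := fun m : ℕ => (Units.mk0 ((m : ℂ) + 1) (by exact_mod_cast Nat.succ_ne_zero m) : ℂˣ)) ?_ ?_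
      · intro a b hab
        have := congrArg (fun u : ℂˣ => (u : ℂ)) hab
        simpa using this
      · intro m
        apply tv_mem_HH
        simp only [Units.val_mk0]
        exact Subring.add_mem _ (natCast_mem _ m) (Subring.one_mem _)

/-- diagonal element -/
def dg {m : Type} [Fintype m] [DecidableEq m] (t : m → ℂˣ) : GL m ℂ where
  val := diagonal fun b => (t b : ℂ)
  inv := diagonal fun b => (((t b)⁻¹ : ℂˣ) : ℂ)
  val_inv := by rw [diagonal_mul_diagonal]; simp
  inv_val := by rw [diagonal_mul_diagonal]; simp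

theorem dg_val {m : Type} [Fintype m] [DecidableEq m] (t : m → ℂˣ) :
    (dg t).1 = diagonal fun b => (t b : ℂ) := rfl

theorem dg_inv {m : Type} [Fintype m] [DecidableEq m] (t : m → ℂˣ) :
    ((dg t)⁻¹ : GL m ℂ).1 = diagonal fun b => (((t b)⁻¹ : ℂˣ) : ℂ) := rfl

/-- the diagonal embedding of the torus -/
def dd : (α × (Σ i, n i) → ℂˣ) →* GG ι α n where
  toFun t := fun k => dg fun b => t (k.2, ⟨k.1, b⟩)
  map_one' := by
    funext k
    apply Units.ext
    simp [dg_val]
  map_mul' s t := by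
    funext k
    apply Units.ext
    simp [dg_val, diagonal_mul_diagonal]

theorem dd_apply (t : α × (Σ i, n i) → ℂˣ) (k : ι × α) :
    dd (n := n) t k = dg fun b => t (k.2, ⟨k.1, b⟩) := rfl

theorem Lau_dd (c : α × (Σ i, n i) → ℤ) (F : GG ι α n → ℂ)
    (hF : F ∈ TT (ι := ι) (α := α) n) :
    Lau (fun s : ℂˣ => dd (n := n) (fun x => s ^ c x)) F := by
  have key : ∀ z : ℤ, ∃ (p : Polynomial ℂ) (M : ℕ), ∀ s : ℂˣ,
      ((s ^ z : ℂˣ) : ℂ) * (s : ℂ) ^ M = p.eval (s : ℂ) := by
    intro z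
    refine ⟨Polynomial.X ^ (z + z.natAbs).toNat, z.natAbs, fun s => ?_⟩
    have h1 : ((z + z.natAbs).toNat : ℤ) = z + z.natAbs := Int.toNat_of_nonneg (by omega)
    rw [Polynomial.eval_pow, Polynomial.eval_X, ← zpow_natCast (s : ℂ) (z + z.natAbs).toNat, h1,
      zpow_add₀ s.ne_zero, Units.val_zpow_eq_zpow_val, zpow_natCast]
  rcases hF with ⟨k', x, y, rfl⟩ | ⟨k', x, y, rfl⟩
  · by_cases hxy : x = y
    · subst hxy
      obtain ⟨p, M, hp⟩ := key (c (k'.2, ⟨k'.1, x⟩))
      refine ⟨p, M, fun s => ?_⟩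
      simp only [dd_apply, dg_val, diagonal_apply_eq]
      exact hp s
    · apply Lau.const _ _ 0
      intro s
      simp only [dd_apply, dg_val, diagonal_apply_ne _ hxy]
  · by_cases hxy : x = y
    · subst hxy
      obtain ⟨p, M, hp⟩ := key (-c (k'.2, ⟨k'.1, x⟩))
      refine ⟨p, M, fun s => ?_⟩
      simp only [dd_apply, dg_inv, diagonal_apply_eq, ← _root_.zpow_neg]
      exact hp s
    · apply Lau.const _ _ 0
      intro s
      simp only [dd_apply, dg_inv, diagonal_apply_ne _ hxy]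

theorem dd_mem_HH (L : IntermediateField ℚ ℂ) (e : ι → ℕ) (t : α × (Σ i, n i) → ℂˣ)
    (h1 : ∀ x, (t x : ℂ) ∈ OO L) (h2 : ∀ x, (((t x)⁻¹ : ℂˣ) : ℂ) ∈ OO L)
    (h3 : ∀ a, ∏ j, (t (a, j)) ^ (e j.1) = 1) :
    dd (n := n) t ∈ HH (ι := ι) (α := α) (n := n) L e := by
  refine ⟨fun k' x y => ?_, fun k' x y => ?_, fun a => ?_⟩
  · rw [dd_apply, dg_val]
    by_cases hxy : x = y
    · subst hxy; rw [diagonal_apply_eq]; exact h1 _
    · rw [diagonal_apply_ne _ hxy]; exact Subring.zero_mem _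
  · rw [dd_apply, dg_inv]
    by_cases hxy : x = y
    · subst hxy; rw [diagonal_apply_eq]; exact h2 _
    · rw [diagonal_apply_ne _ hxy]; exact Subring.zero_mem _
  · have := congrArg (fun u : ℂˣ => (u : ℂ)) (h3 a)
    simp only [Units.val_one, Units.coe_prod, Units.val_pow_eq_pow_val] at this
    rw [← this, Fintype.prod_sigma]
    refine Finset.prod_congr rfl fun i _ => ?_
    simp only [dd_apply, dg_val, det_diagonal]
    rw [Finset.prod_pow]

end

end Vale.Agent.P002
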