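import Vale.Agent.P002.Abel

/-! Abelian groups with prescribed quasi-unipotent boundary classes. -/

namespace Vale.Agent.P002

open Matrix

/-- Laurent monomials on a torus -/
def mono (k : ℕ) : Set ((Fin k → ℂˣ) → ℂ) :=
  {F | ∃ m : Fin k → ℤ, F = fun s => ((∏ j, s j ^ m j : ℂˣ) : ℂ)}

theorem mono_L {k : ℕ} : ∀ F ∈ Algebra.adjoin ℂ (mono k), ∀ g : Fin k → ℂˣ,
    (fun x => F (g * x)) ∈ Algebra.adjoin ℂ (mono k) := by
  intro F hF g
  induction hF using Algebra.adjoin_induction with
  | mem F hF =>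
    obtain ⟨m, rfl⟩ := hF
    have : (fun x : Fin k → ℂˣ => ((∏ j, (g * x) j ^ m j : ℂˣ) : ℂ)) =
        ((∏ j, g j ^ m j : ℂˣ) : ℂ) • (fun x : Fin k → ℂˣ => ((∏ j, x j ^ m j : ℂˣ) : ℂ)) := by
      funext x
      simp only [Pi.mul_apply, _root_.mul_zpow, Finset.prod_mul_distrib, Units.val_mul,
        Pi.smul_apply, smul_eq_mul]
    dsimp only
    rw [this]
    exact Subalgebra.smul_mem _ (Algebra.subset_adjoin (show _ ∈ mono k from ⟨m, rfl⟩)) _
  | algebraMap r => exact Subalgebra.algebraMap_mem _ r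
  | add x y _ _ h1 h2 => exact Subalgebra.add_mem _ h1 h2
  | mul x y _ _ h1 h2 => exact Subalgebra.mul_mem _ h1 h2

theorem mono_R {k : ℕ} : ∀ F ∈ Algebra.adjoin ℂ (mono k), ∀ g : Fin k → ℂˣ,
    (fun x => F (x * g)) ∈ Algebra.adjoin ℂ (mono k) := by
  intro F hF g
  have := mono_L F hF g
  simpa only [mul_comm] using this

theorem torus_dense {k N : ℕ} {L : IntermediateField ℚ ℂ} (hL : Good N L)
    (F : (Fin k → ℂˣ) → ℂ) (hF : F ∈ Algebra.adjoin ℂ (mono k))
    (h0 : ∀ s : Fin k → ℂˣ, (∀ j, ((s j : ℂˣ) : ℂ) ∈ OO L) → (∀ j, (((s j)⁻¹ : ℂˣ) : ℂ) ∈ OO L) →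
      F s = 0) (s : Fin k → ℂˣ) : F s = 0 := by
  let H : Submonoid (Fin k → ℂˣ) :=
    { carrier := {s | (∀ j, ((s j : ℂˣ) : ℂ) ∈ OO L) ∧ (∀ j, (((s j)⁻¹ : ℂˣ) : ℂ) ∈ OO L)}
      one_mem' := ⟨fun j => by simpa using Subring.one_mem _, fun j => by
        simpa using Subring.one_mem _⟩
      mul_mem' := by
        rintro a b ⟨a1, a2⟩ ⟨b1, b2⟩
        refine ⟨fun j => ?_, fun j => ?_⟩
        · rw [Pi.mul_apply, Units.val_mul]
          exact Subring.mul_mem _ (a1 j) (b1 j)
        · rw [Pi.mul_apply, _root_.mul_inv_rev, Units.val_mul]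
          exact Subring.mul_mem _ (b2 j) (a2 j) }
  have hall : s ∈ clos (Algebra.adjoin ℂ (mono k)) H mono_L mono_R := by
    apply Submonoid.pi_mem_of_mulSingle_mem
    intro j
    refine one_param (H := H) (hL := mono_L) (hR := mono_R)
      (fun t : ℂˣ => (Pi.mulSingle j t : Fin k → ℂˣ)) ?_ ?_ (s j)
    · rintro F ⟨m, rfl⟩
      refine ⟨Polynomial.X ^ (m j + (m j).natAbs).toNat, (m j).natAbs, fun t => ?_⟩
      have h1 : (((m j) + (m j).natAbs).toNat : ℤ) = (m j) + (m j).natAbs :=
        Int.toNat_of_nonneg (by omega)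
      have h2 : (∏ i, (Pi.mulSingle j t : Fin k → ℂˣ) i ^ m i) = t ^ m j := by
        rw [Finset.prod_eq_single j]
        · rw [Pi.mulSingle_eq_same]
        · intro i _ hi
          rw [Pi.mulSingle_eq_of_ne hi, _root_.one_zpow]
        · intro hj
          exact absurd (Finset.mem_univ j) hj
      dsimp only
      rw [h2, Polynomial.eval_pow, Polynomial.eval_X,
        ← zpow_natCast (t : ℂ) ((m j) + (m j).natAbs).toNat, h1, zpow_add₀ t.ne_zero,
        Units.val_zpow_eq_zpow_val, zpow_natCast]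
    · obtain ⟨u, hu1, hu2, hu3⟩ := hL.unit
      refine Set.infinite_of_injective_forall_mem (f := fun m : ℕ => u ^ m) hu3 ?_
      intro m
      have hm1 : ((u ^ m : ℂˣ) : ℂ) ∈ OO L := by
        rw [Units.val_pow_eq_pow_val]; exact Subring.pow_mem _ hu1 _
      have hm2 : (((u ^ m : ℂˣ)⁻¹ : ℂˣ) : ℂ) ∈ OO L := by
        rw [← _root_.inv_pow, Units.val_pow_eq_pow_val]; exact Subring.pow_mem _ hu2 _
      refine ⟨fun i => ?_, fun i => ?_⟩
      · by_cases hi : i = j
        · subst hi
          rw [Pi.mulSingle_eq_same]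
          exact hm1
        · rw [Pi.mulSingle_eq_of_ne hi]
          simpa using Subring.one_mem _
      · by_cases hi : i = j
        · subst hi
          rw [Pi.mulSingle_eq_same]
          exact hm2
        · rw [Pi.mulSingle_eq_of_ne hi]
          simpa using Subring.one_mem _
  exact hall F hF fun t ht => h0 t ht.1 ht.2

theorem exists_SL_conj {r : ℕ} (hr : 0 < r) (G : GL (Fin r) ℂ) :
    ∃ S : SpecialLinearGroup (Fin r) ℂ, ∀ a b : SpecialLinearGroup (Fin r) ℂ,
      SpecialLinearGroup.toGL b = G * SpecialLinearGroup.toGL a * G⁻¹ → b = S * a * S⁻¹ := by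
  obtain ⟨z, hz⟩ := IsAlgClosed.exists_pow_nat_eq G.1.det hr
  have hG0 : G.1.det ≠ 0 := ((Matrix.isUnit_iff_isUnit_det G.1).1 G.isUnit).ne_zero
  have hz0 : z ≠ 0 := by
    rintro rfl
    rw [zero_pow hr.ne'] at hz
    exact hG0 hz.symm
  let S : SpecialLinearGroup (Fin r) ℂ := ⟨z⁻¹ • G.1, by
    rw [det_smul, Fintype.card_fin, _root_.inv_pow, hz, inv_mul_cancel₀ hG0]⟩
  refine ⟨S, fun a b h => ?_⟩
  rw [eq_mul_inv_iff_mul_eq]
  apply Subtype.ext
  have h1 : (SpecialLinearGroup.toGL b * G : GL (Fin r) ℂ) =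
      G * SpecialLinearGroup.toGL a := by
    rw [h]
    group
  have h2 := congrArg (fun g : GL (Fin r) ℂ => g.1) h1
  simp only [Units.val_mul] at h2
  have h3 : (b : Matrix (Fin r) (Fin r) ℂ) * G.1 = G.1 * (a : Matrix (Fin r) (Fin r) ℂ) := h2
  change (b : Matrix (Fin r) (Fin r) ℂ) * (z⁻¹ • G.1) =
    (z⁻¹ • G.1) * (a : Matrix (Fin r) (Fin r) ℂ)
  rw [Matrix.mul_smul, Matrix.smul_mul, h3]

/-- the diagonal homomorphism -/
def dgh {m : Type} [Fintype m] [DecidableEq m] : (m → ℂˣ) →* GL m ℂ where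
  toFun t := dg t
  map_one' := by
    apply Units.ext
    simp [dg_val]
  map_mul' s t := by
    apply Units.ext
    simp [dg_val, diagonal_mul_diagonal]

theorem abel_boundary (Γ : Type) [CommGroup Γ] [Group.FG Γ] (r s : ℕ) (g : Fin s → Γ)
    (c : Fin s → SpecialLinearGroup (Fin r) ℂ)
    (hc : ∀ l, ∃ M : ℕ, 0 < M ∧ IsNilpotent ((c l : Matrix (Fin r) (Fin r) ℂ) ^ M - 1)) :
    ∃ L : IntermediateField ℚ ℂ, FiniteDimensional ℚ L ∧
      ∀ F ∈ RegularFunctions Γ r, ConjugationInvariant F →
        (∀ ρ : Γ →* SpecialLinearGroup (Fin r) ℂ, IntegralOver L ρ → Semisimple ρ →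
          (∀ l, IsConj (c l) (ρ (g l))) → F ρ = 0) →
        ∀ ρ : Γ →* SpecialLinearGroup (Fin r) ℂ, Semisimple ρ →
          (∀ l, IsConj (c l) (ρ (g l))) → F ρ = 0 := by
  classical
  choose M hM hMn using hc
  have hM0 : 0 < ∏ l, M l := Finset.prod_pos fun l _ => hM l
  have hfgA : Module.Finite ℤ (Additive Γ) := Module.Finite.iff_addGroup_fg.2 inferInstance
  let B := Fin r → Additive Γ
  let C : Submodule ℤ B := Submodule.span ℤ
    ({b | ∃ (y : Fin r) (l : Fin s), b = Pi.single y (Additive.ofMul (g l))} ∪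
      {b | ∃ γ : Γ, b = fun _ => Additive.ofMul γ})
  obtain ⟨k, p, z, e, he, hpC, hpz, hpe⟩ := lattice_split C
  obtain ⟨L, hfin, hL⟩ := exists_good ((∏ l, M l) * e)
  refine ⟨L, hfin, fun F hF hinv h0 ρ hρ hb => ?_⟩
  rcases Nat.eq_zero_or_pos r with hr | hr
  · exact h0 ρ (fun γ i => absurd i.2 (by omega)) hρ hb
  obtain ⟨Q, χ, hQ⟩ := diag_ss ρ hρ
  have hχdet : ∀ γ, ∏ y, χ y γ = 1 := by
    intro γ
    have h1 : (SpecialLinearGroup.toGL (ρ γ)).1.det = 1 := (ρ γ).2
    rw [hQ γ, Units.val_mul, Units.val_mul, det_mul, det_mul, mul_comm, ← mul_assoc, ← det_mul,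
      ← Units.val_mul, inv_mul_cancel, Units.val_one, det_one, one_mul, dg_val, det_diagonal] at h1
    apply Units.ext
    rw [Units.coe_prod, h1, Units.val_one]
  have hχroot : ∀ y l, (χ y (g l)) ^ (∏ l, M l) = 1 := by
    intro y l
    obtain ⟨w, hw⟩ := isConj_iff.1 (hb l)
    have h1 : SpecialLinearGroup.toGL (c l) =
        ((SpecialLinearGroup.toGL w)⁻¹ * Q) * dg (fun y => χ y (g l)) *
          ((SpecialLinearGroup.toGL w)⁻¹ * Q)⁻¹ := by
      have h2 := hQ (g l)
      rw [← hw, map_mul, map_mul, map_inv] at h2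
      calc SpecialLinearGroup.toGL (c l) = (SpecialLinearGroup.toGL w)⁻¹ *
            (SpecialLinearGroup.toGL w * SpecialLinearGroup.toGL (c l) *
              (SpecialLinearGroup.toGL w)⁻¹) * SpecialLinearGroup.toGL w := by group
        _ = _ := by rw [h2]; group
    have h3 := eig_root h1 (hMn l) y
    obtain ⟨q, hq⟩ := Finset.dvd_prod_of_mem M (Finset.mem_univ l)
    rw [hq, pow_mul, h3, one_pow]
  -- the character of the lattice
  let X : B →+ Additive ℂˣ := AddMonoidHom.mk' (fun b => Additive.ofMul (∏ y, χ y (b y).toMul))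
    (by
      intro a b
      have h1 : ∀ y, (a + b) y = a y + b y := fun y => rfl
      apply Additive.toMul.injective
      change ∏ y, χ y ((a + b) y).toMul = (∏ y, χ y (a y).toMul) * ∏ y, χ y (b y).toMul
      rw [← Finset.prod_mul_distrib]
      refine Finset.prod_congr rfl fun y _ => ?_
      rw [h1, toMul_add, map_mul])
  have hXval : ∀ b, (X b).toMul = ∏ y, χ y (b y).toMul := fun b => rfl
  have hXsingle : ∀ y γ, X (Pi.single y (Additive.ofMul γ)) = Additive.ofMul (χ y γ) := by
    intro y γ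
    apply Additive.toMul.injective
    rw [hXval, Finset.prod_eq_single y]
    · simp
    · intro x _ hx
      rw [Pi.single_eq_of_ne hx]
      simp
    · intro hy
      exact absurd (Finset.mem_univ y) hy
  have hXdiag : ∀ γ, X (fun _ => Additive.ofMul γ) = 0 := by
    intro γ
    apply Additive.toMul.injective
    rw [hXval]
    exact hχdet γ
  have hXC : ∀ b ∈ C, (∏ l, M l) • X b = 0 := by
    intro b hb
    induction hb using Submodule.span_induction with
    | mem b hb =>
      rcases hb with ⟨y, l, rfl⟩ | ⟨γ, rfl⟩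
      · rw [hXsingle]
        exact congrArg Additive.ofMul (hχroot y l)
      · rw [hXdiag, nsmul_zero]
    | zero => rw [map_zero, nsmul_zero]
    | add x y _ _ h1 h2 => rw [map_add, nsmul_add, h1, h2, add_zero]
    | smul a x _ h1 =>
      have h1' : (X x).toMul ^ (∏ l, M l) = 1 := congrArg Additive.toMul h1
      apply Additive.toMul.injective
      rw [map_zsmul]
      change ((X x).toMul ^ a) ^ (∏ l, M l) = 1
      rw [← _root_.zpow_natCast, ← _root_.zpow_mul, mul_comm, _root_.zpow_mul,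
        _root_.zpow_natCast, h1', _root_.one_zpow]
  have hXK : ∀ b, p b = 0 → ((∏ l, M l) * e) • X b = 0 := by
    intro b hb
    have h1 := hXC _ (hpe b hb)
    have h1' : ((X b).toMul ^ (e : ℤ)) ^ (∏ l, M l) = 1 := by
      rw [map_zsmul] at h1
      exact congrArg Additive.toMul h1
    apply Additive.toMul.injective
    change (X b).toMul ^ ((∏ l, M l) * e) = 1
    rw [mul_comm, pow_mul, ← _root_.zpow_natCast _ e]
    exact h1'
  -- the deformed character
  let Y : (Fin k → ℂˣ) → B →+ Additive ℂˣ := fun t => AddMonoidHom.mk'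
    (fun b => X (b - ∑ j, p b j • z j) + ∑ j, p b j • Additive.ofMul (t j)) (by
      intro a b
      have e1 : ∀ j, p (a + b) j • z j = p a j • z j + p b j • z j := fun j => by
        rw [map_add, Pi.add_apply, add_zsmul]
      have e2 : ∀ j, p (a + b) j • Additive.ofMul (t j) =
          p a j • Additive.ofMul (t j) + p b j • Additive.ofMul (t j) := fun j => by
        rw [map_add, Pi.add_apply, add_zsmul]
      have h1 : a + b - ∑ j, p (a + b) j • z j =
          (a - ∑ j, p a j • z j) + (b - ∑ j, p b j • z j) := by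
        rw [Finset.sum_congr rfl fun j _ => e1 j, Finset.sum_add_distrib]
        abel
      rw [h1, Finset.sum_congr rfl fun j _ => e2 j, Finset.sum_add_distrib, map_add]
      abel)
  have hYval : ∀ t b, Y t b = X (b - ∑ j, p b j • z j) + ∑ j, p b j • Additive.ofMul (t j) :=
    fun t b => rfl
  have hYC : ∀ t, ∀ b ∈ C, Y t b = X b := by
    intro t b hb
    rw [hYval, hpC b hb]
    simp
  let χ' : (Fin k → ℂˣ) → Fin r → Γ →* ℂˣ := fun t y => MonoidHom.mk'
    (fun γ => (Y t (Pi.single y (Additive.ofMul γ))).toMul) (by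
      intro a b
      rw [ofMul_mul, Pi.single_add, map_add, toMul_add])
  have hχ'val : ∀ t y γ, χ' t y γ = (Y t (Pi.single y (Additive.ofMul γ))).toMul := fun t y γ => rfl
  have hχ'det : ∀ t γ, ∏ y, χ' t y γ = 1 := by
    intro t γ
    have h1 : (fun _ => Additive.ofMul γ : B) = ∑ y, Pi.single y (Additive.ofMul γ) := by
      rw [Finset.univ_sum_single (fun _ : Fin r => Additive.ofMul γ)]
    have h2 : Y t (fun _ => Additive.ofMul γ) = 0 := by
      rw [hYC t _ (Submodule.subset_span (Or.inr ⟨γ, rfl⟩)), hXdiag]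
    rw [h1, map_sum] at h2
    simp only [hχ'val]
    rw [← toMul_sum, h2, toMul_zero]
  let ρ' : (Fin k → ℂˣ) → Γ →* SpecialLinearGroup (Fin r) ℂ := fun t =>
    sl (dgh.comp (MonoidHom.pi (χ' t))) (by
      intro γ
      change (dg (fun y => χ' t y γ)).1.det = 1
      rw [dg_val, det_diagonal, ← Units.coe_prod, hχ'det, Units.val_one])
  have hρ'val : ∀ t γ, (ρ' t γ : Matrix (Fin r) (Fin r) ℂ) =
      diagonal (fun y => ((χ' t y γ : ℂˣ) : ℂ)) := fun t γ => rfl
  have hρ'GL : ∀ t γ, SpecialLinearGroup.toGL (ρ' t γ) = dg (fun y => χ' t y γ) :=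
    fun t γ => Units.ext rfl
  have hss : ∀ t, Semisimple (ρ' t) := fun t => semisimple_diag (ρ' t) _ (hρ'val t)
  have hbd : ∀ t l, IsConj (c l) (ρ' t (g l)) := by
    intro t l
    refine (hb l).trans ?_
    have h1 : ∀ y, χ' t y (g l) = χ y (g l) := by
      intro y
      rw [hχ'val, hYC t _ (Submodule.subset_span (Or.inl ⟨y, l, rfl⟩)), hXsingle]
      rfl
    obtain ⟨S, hS⟩ := exists_SL_conj hr Q⁻¹
    rw [isConj_iff]
    refine ⟨S, (hS _ _ ?_).symm⟩
    rw [hρ'GL, hQ]
    simp only [h1]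
    group
  have hvan : ∀ t, F (ρ' t) = 0 := by
    intro t
    refine torus_dense hL (fun t => F (ρ' t)) ?_ ?_ t
    · clear h0 hinv
      unfold RegularFunctions at hF
      induction hF using Algebra.adjoin_induction with
      | mem F hF =>
        obtain ⟨γ, i, j, rfl⟩ := hF
        by_cases hij : i = j
        · subst hij
          have : (fun t => (ρ' t γ : Matrix (Fin r) (Fin r) ℂ) i i) =
              (((X ((Pi.single i (Additive.ofMul γ) : B) -
                ∑ j, p (Pi.single i (Additive.ofMul γ)) j • z j)).toMul : ℂˣ) : ℂ) •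
              (fun t : Fin k → ℂˣ =>
                ((∏ j, t j ^ (p (Pi.single i (Additive.ofMul γ)) j) : ℂˣ) : ℂ)) := by
            funext t
            rw [hρ'val, diagonal_apply_eq, hχ'val, hYval, toMul_add, toMul_sum, Units.val_mul]
            rfl
          dsimp only
          rw [this]
          exact Subalgebra.smul_mem _ (Algebra.subset_adjoin (show _ ∈ mono k from
            ⟨p (Pi.single i (Additive.ofMul γ)), rfl⟩)) _
        · have : (fun t => (ρ' t γ : Matrix (Fin r) (Fin r) ℂ) i j) = fun _ => 0 := by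
            funext t
            rw [hρ'val, diagonal_apply_ne _ hij]
          dsimp only
          rw [this]
          exact Subalgebra.zero_mem _
      | algebraMap r => exact Subalgebra.algebraMap_mem _ r
      | add x y _ _ h1 h2 => exact Subalgebra.add_mem _ h1 h2
      | mul x y _ _ h1 h2 => exact Subalgebra.mul_mem _ h1 h2
    · intro t ht1 ht2
      refine h0 _ ?_ (hss t) (hbd t)
      intro γ i j
      rw [hρ'val]
      by_cases hij : i = j
      · subst hij
        rw [diagonal_apply_eq, hχ'val, hYval, toMul_add, Units.val_mul]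
        have h1 : ((X ((Pi.single i (Additive.ofMul γ) : B) -
            ∑ j, p (Pi.single i (Additive.ofMul γ)) j • z j)).toMul : ℂˣ) ^
              ((∏ l, M l) * e) = 1 := by
          have h2 := hXK ((Pi.single i (Additive.ofMul γ) : B) -
            ∑ j, p (Pi.single i (Additive.ofMul γ)) j • z j) (by
              rw [map_sub, map_sum]
              simp only [map_zsmul, hpz]
              funext x
              simp [Finset.sum_apply, Pi.single_apply])
          exact congrArg Additive.toMul h2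
        have h3 : ((((X ((Pi.single i (Additive.ofMul γ) : B) -
            ∑ j, p (Pi.single i (Additive.ofMul γ)) j • z j)).toMul : ℂˣ) : ℂ)) ^
              ((∏ l, M l) * e) = 1 := by
          have := congrArg (fun u : ℂˣ => (u : ℂ)) h1
          simpa using this
        have hpos : 0 < (∏ l, M l) * e := Nat.mul_pos hM0 he
        refine Subring.mul_mem (OO L) ⟨root_integral hpos h3, hL.root _ _ hpos le_rfl h3⟩ ?_
        rw [toMul_sum, Units.coe_prod]
        refine Subring.prod_mem _ fun j _ => ?_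
        exact zpow_mem_OO (ht1 j) (ht2 j) _
      · rw [diagonal_apply_ne _ hij]
        exact ⟨isIntegral_zero, zero_mem _⟩
  -- the original representation
  let t0 : Fin k → ℂˣ := fun j => (X (z j)).toMul
  have hYX : ∀ b, Y t0 b = X b := by
    intro b
    rw [hYval]
    have h1 : ∀ j, p b j • Additive.ofMul (t0 j) = X (p b j • z j) := by
      intro j
      rw [map_zsmul]
      rfl
    simp only [h1]
    rw [← map_sum, ← map_add, sub_add_cancel]
  rw [← hvan t0]
  refine conj_GL hr hinv Q _ _ ?_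
  intro γ
  rw [hρ'GL, hQ γ]
  have h1 : ∀ y, χ' t0 y γ = χ y γ := by
    intro y
    rw [hχ'val, hYX, hXsingle]
    rfl
  simp only [h1]

end Vale.Agent.P002
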