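import Vale.Agent.P002.Defs

/-! One more definition for P002: quasi-unipotent matrices. -/

namespace Vale.Agent.P002

open Matrix

/-- `c` is quasi-unipotent: some positive power of `c` is unipotent (equivalently, all
eigenvalues of `c` are roots of unity). -/
def QuasiUnipotent {r : ℕ} (c : SpecialLinearGroup (Fin r) ℂ) : Prop :=
  ∃ M : ℕ, 0 < M ∧ IsNilpotent ((c : Matrix (Fin r) (Fin r) ℂ) ^ M - 1)

end Vale.Agent.P002
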