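import Mathlib

/-! Density of integral points: general submonoid argument and generation of the
determinant-relation group by one-parameter families. -/

namespace Vale.Agent.P002

open Matrix

/-- the submonoid of points at which every function of the algebra vanishing on H vanishes -/
def clos {G : Type} [Group G] (A : Subalgebra ℂ (G → ℂ)) (H : Submonoid G)
    (hL : ∀ F ∈ A, ∀ g : G, (fun x => F (g * x)) ∈ A)
    (hR : ∀ F ∈ A, ∀ g : G, (fun x => F (x * g)) ∈ A) : Submonoid G where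
  carrier := {g | ∀ F ∈ A, (∀ h ∈ H, F h = 0) → F g = 0}
  one_mem' := fun F _ h0 => h0 1 H.one_mem
  mul_mem' := by
    intro s g hs hg F hF h0
    have h1 : ∀ h ∈ H, F (h * g) = 0 := by
      intro h hh
      exact hg (fun x => F (h * x)) (hL F hF h) (fun h' hh' => h0 _ (H.mul_mem hh hh'))
    exact hs (fun x => F (x * g)) (hR F hF g) h1

theorem mem_clos {G : Type} [Group G] {A : Subalgebra ℂ (G → ℂ)} {H : Submonoid G}
    {hL : ∀ F ∈ A, ∀ g : G, (fun x => F (g * x)) ∈ A}
    {hR : ∀ F ∈ A, ∀ g : G, (fun x => F (x * g)) ∈ A} {g : G} :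
    g ∈ clos A H hL hR ↔ ∀ F ∈ A, (∀ h ∈ H, F h = 0) → F g = 0 := Iff.rfl

theorem le_clos {G : Type} [Group G] {A : Subalgebra ℂ (G → ℂ)} {H : Submonoid G}
    {hL : ∀ F ∈ A, ∀ g : G, (fun x => F (g * x)) ∈ A}
    {hR : ∀ F ∈ A, ∀ g : G, (fun x => F (x * g)) ∈ A} : H ≤ clos A H hL hR :=
  fun _ hg _ _ h0 => h0 _ hg

/-- F is Laurent-polynomial along c -/
def Lau {X : Type} (c : ℂˣ → X) (F : X → ℂ) : Prop :=
  ∃ (p : Polynomial ℂ) (M : ℕ), ∀ s : ℂˣ, F (c s) * (s : ℂ) ^ M = p.eval (s : ℂ)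

theorem Lau.const {X : Type} (c : ℂˣ → X) (F : X → ℂ) (z : ℂ) (h : ∀ s, F (c s) = z) :
    Lau c F := ⟨Polynomial.C z, 0, fun s => by simp [h]⟩

theorem Lau.add {X : Type} {c : ℂˣ → X} {F G : X → ℂ} (hF : Lau c F) (hG : Lau c G) :
    Lau c (F + G) := by
  obtain ⟨p, M, hp⟩ := hF
  obtain ⟨q, N, hq⟩ := hG
  refine ⟨p * Polynomial.X ^ N + q * Polynomial.X ^ M, M + N, fun s => ?_⟩
  have h1 := hp s
  have h2 := hq s
  simp only [Pi.add_apply, Polynomial.eval_add, Polynomial.eval_mul, Polynomial.eval_pow,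
    Polynomial.eval_X, ← h1, ← h2]
  ring

theorem Lau.mul {X : Type} {c : ℂˣ → X} {F G : X → ℂ} (hF : Lau c F) (hG : Lau c G) :
    Lau c (F * G) := by
  obtain ⟨p, M, hp⟩ := hF
  obtain ⟨q, N, hq⟩ := hG
  refine ⟨p * q, M + N, fun s => ?_⟩
  have h1 := hp s
  have h2 := hq s
  simp only [Pi.mul_apply, Polynomial.eval_mul, ← h1, ← h2]
  ring

theorem Lau.adjoin {X : Type} {c : ℂˣ → X} {T : Set (X → ℂ)} (hT : ∀ F ∈ T, Lau c F)
    {F : X → ℂ} (hF : F ∈ Algebra.adjoin ℂ T) : Lau c F := by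
  induction hF using Algebra.adjoin_induction with
  | mem x hx => exact hT x hx
  | algebraMap r => exact Lau.const c _ r (fun s => by simp)
  | add x y _ _ h1 h2 => exact h1.add h2
  | mul x y _ _ h1 h2 => exact h1.mul h2

theorem Lau.zero {X : Type} {c : ℂˣ → X} {F : X → ℂ} (h : Lau c F)
    (hinf : {s : ℂˣ | F (c s) = 0}.Infinite) (s : ℂˣ) : F (c s) = 0 := by
  obtain ⟨p, M, hp⟩ := h
  have hp0 : p = 0 := by
    apply Polynomial.eq_zero_of_infinite_isRoot
    have h2 : ((fun s : ℂˣ => (s : ℂ)) '' {s : ℂˣ | F (c s) = 0}).Infinite :=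
      hinf.image (fun a _ b _ hab => Units.ext hab)
    refine h2.mono ?_
    rintro x ⟨s, hs, rfl⟩
    have h3 := hp s
    have hs' : F (c s) = 0 := hs
    rw [hs', zero_mul] at h3
    exact h3.symm
  have h3 := hp s
  rw [hp0, Polynomial.eval_zero] at h3
  rcases mul_eq_zero.1 h3 with h4 | h4
  · exact h4
  · exact absurd h4 (pow_ne_zero _ s.ne_zero)

/-- a one-parameter family along which the functions are Laurent polynomials and which hits H
infinitely often lies in the closure -/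
theorem one_param {G : Type} [Group G] {T : Set (G → ℂ)} {H : Submonoid G}
    {hL : ∀ F ∈ Algebra.adjoin ℂ T, ∀ g : G, (fun x => F (g * x)) ∈ Algebra.adjoin ℂ T}
    {hR : ∀ F ∈ Algebra.adjoin ℂ T, ∀ g : G, (fun x => F (x * g)) ∈ Algebra.adjoin ℂ T}
    (c : ℂˣ → G) (hT : ∀ F ∈ T, Lau c F) (hinf : {s : ℂˣ | c s ∈ H}.Infinite) (s : ℂˣ) :
    c s ∈ clos (Algebra.adjoin ℂ T) H hL hR := by
  intro F hF h0
  exact (Lau.adjoin hT hF).zero (hinf.mono fun s hs => h0 _ hs) s

/-- generation of the relation torus -/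
theorem torus_gen {α J : Type} [Fintype α] [DecidableEq α] [Fintype J] [DecidableEq J]
    (j0 : J) (w : J → ℕ) (hw : 0 < w j0) (S : Submonoid (α × J → ℂˣ))
    (h1 : ∀ n : α × J → ℤ, (∀ a, ∑ j, (w j : ℤ) * n (a, j) = 0) → ∀ s : ℂˣ,
      (fun x => s ^ (n x)) ∈ S)
    (h2 : ∀ t : α × J → ℂˣ, (∀ x, (t x) ^ (w j0) = 1) → (∀ a, ∏ j, (t (a, j)) ^ (w j) = 1) →
      t ∈ S)
    (t : α × J → ℂˣ) (ht : ∀ a, ∏ j, (t (a, j)) ^ (w j) = 1) : t ∈ S := by
  classical
  have hroot : ∀ x, ∃ r : ℂˣ, r ^ (w j0) = t x := by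
    intro x
    obtain ⟨z, hz⟩ := IsAlgClosed.exists_pow_nat_eq ((t x : ℂˣ) : ℂ) hw
    have hz0 : z ≠ 0 := by
      rintro rfl
      rw [zero_pow hw.ne'] at hz
      exact (t x).ne_zero hz.symm
    exact ⟨Units.mk0 z hz0, Units.ext (by simpa using hz)⟩
  choose r hr using hroot
  let n : α × J → α × J → ℤ := fun x y =>
    (if y = x then (w j0 : ℤ) else 0) - (if y = (x.1, j0) then (w x.2 : ℤ) else 0)
  have hn : ∀ x a, ∑ j, (w j : ℤ) * n x (a, j) = 0 := by
    intro x a
    obtain ⟨xa, xj⟩ := x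
    simp only [n, Prod.mk.injEq, mul_sub, Finset.sum_sub_distrib]
    by_cases ha : a = xa
    · simp [ha, mul_comm]
    · simp [ha]
  have hmem1 : (∏ x, (fun y => (r x) ^ (n x y))) ∈ S :=
    Submonoid.prod_mem _ fun x _ => h1 (n x) (hn x) (r x)
  let t2 : α × J → ℂˣ := fun y => if y.2 = j0 then ∏ j, (r (y.1, j)) ^ (w j) else 1
  have ht2 : t2 ∈ S := by
    apply h2
    · intro x
      simp only [t2]
      split_ifs with hx
      · rw [← Finset.prod_pow]
        rw [← ht x.1]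
        refine Finset.prod_congr rfl fun j _ => ?_
        rw [← hr (x.1, j), ← pow_mul, ← pow_mul, mul_comm]
      · simp
    · intro a
      simp only [t2]
      rw [Finset.prod_eq_single j0]
      · simp only [if_true]
        rw [← Finset.prod_pow, ← ht a]
        refine Finset.prod_congr rfl fun j _ => ?_
        rw [← hr (a, j), ← pow_mul, ← pow_mul, mul_comm]
      · intro j _ hj
        simp [hj]
      · simp
  have : t = (∏ x, (fun y => (r x) ^ (n x y))) * t2 := by
    funext y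
    obtain ⟨ya, yj⟩ := y
    simp only [Pi.mul_apply, Finset.prod_apply, t2, n]
    have e1 : ∀ x : α × J, (r x) ^ ((if (ya, yj) = x then (w j0 : ℤ) else 0) -
        (if (ya, yj) = (x.1, j0) then (w x.2 : ℤ) else 0)) =
        (if (ya, yj) = x then (r x) ^ (w j0) else 1) *
          (if (ya, yj) = (x.1, j0) then (r x) ^ (w x.2) else 1)⁻¹ := by
      intro x
      rw [_root_.zpow_sub]
      congr 1
      · split_ifs <;> simp
      · split_ifs <;> simp
    simp only [e1, Finset.prod_mul_distrib, Finset.prod_inv_distrib]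
    rw [Finset.prod_ite_eq]
    simp only [Finset.mem_univ, if_true, hr]
    by_cases hy : yj = j0
    · subst hy
      simp only [if_true, Prod.mk.injEq, and_true]
      have e2 : (∏ x : α × J, if ya = x.1 then r x ^ w x.2 else 1) = ∏ j, r (ya, j) ^ w j := by
        rw [Fintype.prod_prod_type]
        rw [Finset.prod_eq_single ya]
        · simp
        · intro b _ hb
          simp [Ne.symm hb]
        · simp
      rw [e2]
      simp
    · simp [hy]
  rw [this]
  exact S.mul_mem hmem1 ht2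

end Vale.Agent.P002
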