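import Mathlib

/-! Definitions for P002: regular functions on the representation variety, conjugation invariance,
integral points. -/

namespace Vale.Agent.P002

open Matrix

/-- Regular functions on the space `Hom(Γ, SL_r(ℂ))`: the `ℂ`-algebra of functions generated by
all matrix entries `ρ ↦ ρ(γ)_{ij}`, `γ ∈ Γ`. (For `Γ` generated by finitely many elements this is
the algebra of polynomial functions in the entries of the images of the generators.) -/
def RegularFunctions (Γ : Type) [Group Γ] (r : ℕ) :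
    Subalgebra ℂ ((Γ →* SpecialLinearGroup (Fin r) ℂ) → ℂ) :=
  Algebra.adjoin ℂ {F | ∃ (γ : Γ) (i j : Fin r),
    F = fun ρ => (ρ γ : Matrix (Fin r) (Fin r) ℂ) i j}

/-- `F` is invariant under simultaneous conjugation by `SL_r(ℂ)`. -/
def ConjugationInvariant {Γ : Type} [Group Γ] {r : ℕ}
    (F : (Γ →* SpecialLinearGroup (Fin r) ℂ) → ℂ) : Prop :=
  ∀ (g : SpecialLinearGroup (Fin r) ℂ) (ρ σ : Γ →* SpecialLinearGroup (Fin r) ℂ),
    (∀ γ, σ γ = g * ρ γ * g⁻¹) → F σ = F ρ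

/-- `ρ` takes values in `SL_r(𝓞_L)`: all entries of all `ρ(γ)` are algebraic integers of `L`. -/
def IntegralOver {Γ : Type} [Group Γ] {r : ℕ} (L : IntermediateField ℚ ℂ)
    (ρ : Γ →* SpecialLinearGroup (Fin r) ℂ) : Prop :=
  ∀ (γ : Γ) (i j : Fin r), IsIntegral ℤ ((ρ γ : Matrix (Fin r) (Fin r) ℂ) i j) ∧
    (ρ γ : Matrix (Fin r) (Fin r) ℂ) i j ∈ L

/-- `ρ` is semisimple: every invariant subspace of `ℂ^r` has an invariant complement. -/
def Semisimple {Γ : Type} [Group Γ] {r : ℕ} (ρ : Γ →* SpecialLinearGroup (Fin r) ℂ) : Prop :=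
  ∀ T : Submodule ℂ (Fin r → ℂ),
    (∀ γ, ∀ v ∈ T, (ρ γ : Matrix (Fin r) (Fin r) ℂ) *ᵥ v ∈ T) →
    ∃ T' : Submodule ℂ (Fin r → ℂ),
      (∀ γ, ∀ v ∈ T', (ρ γ : Matrix (Fin r) (Fin r) ℂ) *ᵥ v ∈ T') ∧ IsCompl T T'

end Vale.Agent.P002
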