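import Vale.Agent.P002.Irr

/-! Irreducible representations of a product. -/

namespace Vale.Agent.P002

open Matrix

/-- data of the second factor, from an isotypic decomposition -/
theorem second_factor {R M : Type} [Ring R] [Algebra ℂ R] [AddCommGroup M] [Module ℂ M]
    [Module R M] [IsScalarTower ℂ R M] [Module.Finite ℂ M] (W0 : Submodule R M)
    [IsSimpleModule R W0] (b : ℕ) (e : M ≃ₗ[R] (Fin b → W0)) {Γ₂ : Type} [Group Γ₂]
    (f : Γ₂ →* (M →ₗ[R] M)) :
    ∃ U : Γ₂ →* GL (Fin b) ℂ, ∀ γ k w, f γ (e.symm (Pi.single k w)) =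
      ∑ j, (U γ).1 j k • e.symm (Pi.single j w) := by
  classical
  have : Module.Finite ℂ W0 := Module.Finite.of_injective (W0.subtype.restrictScalars ℂ)
    (Submodule.injective_subtype W0)
  have hc : ∀ (g : M →ₗ[R] M) (j k : Fin b), ∃ c : ℂ, ∀ w, e (g (e.symm (Pi.single k w))) j = c • w := by
    intro g j k
    obtain ⟨c, hc⟩ := schur ((LinearMap.proj j : (Fin b → W0) →ₗ[R] W0) ∘ₗ e.toLinearMap ∘ₗ g ∘ₗ
      e.symm.toLinearMap ∘ₗ LinearMap.single R (fun _ => W0) k)
    exact ⟨c, fun w => by simpa using hc w⟩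
  choose c hc using hc
  have hsum : ∀ (g : M →ₗ[R] M) (k : Fin b) (w : W0), g (e.symm (Pi.single k w)) =
      ∑ j, c g j k • e.symm (Pi.single j w) := by
    intro g k w
    apply e.injective
    rw [map_sum]
    have h1 : ∀ j, e (c g j k • e.symm (Pi.single j w)) = Pi.single j (c g j k • w) := by
      intro j
      have : c g j k • e.symm (Pi.single j w) =
          e.symm (Pi.single j (c g j k • w)) := by
        have h2 : (Pi.single j (c g j k • w) : Fin b → W0) = c g j k • Pi.single j w := by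
          rw [Pi.single_smul]
        rw [h2]
        exact ((e.symm.toLinearMap.restrictScalars ℂ).map_smul _ _).symm
      rw [this, LinearEquiv.apply_symm_apply]
    simp only [h1]
    rw [Finset.univ_sum_single (fun j => c g j k • w)]
    funext j
    exact hc g j k w
  obtain ⟨w0, hw0⟩ : ∃ w : W0, w ≠ 0 := by
    have := IsSimpleModule.nontrivial R W0
    exact exists_ne 0
  let U0 : Γ₂ →* Matrix (Fin b) (Fin b) ℂ :=
    { toFun := fun γ => Matrix.of fun j k => c (f γ) j k
      map_one' := by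
        ext j k
        simp only [Matrix.of_apply]
        have h1 := hc (f 1) j k w0
        rw [map_one] at h1 ⊢
        have h2 : e ((1 : M →ₗ[R] M) (e.symm (Pi.single k w0))) j = (1 : Matrix (Fin b) (Fin b) ℂ) j k • w0 := by
          rw [Module.End.one_apply, LinearEquiv.apply_symm_apply, Matrix.one_apply, Pi.single_apply]
          split_ifs <;> simp
        rw [h2] at h1
        exact (smul_left_injective ℂ hw0 h1).symm
      map_mul' := by
        intro γ γ'
        ext j k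
        rw [Matrix.mul_apply]
        simp only [Matrix.of_apply]
        have h1 := hc (f (γ * γ')) j k w0
        have h2 : e ((f (γ * γ')) (e.symm (Pi.single k w0))) j =
            (∑ l, c (f γ) j l * c (f γ') l k) • w0 := by
          rw [map_mul, Module.End.mul_apply, hsum (f γ') k w0, map_sum, map_sum, Finset.sum_apply,
            Finset.sum_smul]
          refine Finset.sum_congr rfl fun l _ => ?_
          have h3 : (f γ) (c (f γ') l k • e.symm (Pi.single l w0)) =
              c (f γ') l k • (f γ) (e.symm (Pi.single l w0)) :=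
            ((f γ).restrictScalars ℂ).map_smul _ _
          have h4 : ∀ (z : ℂ) (m : M), e (z • m) = z • e m :=
            fun z m => (e.toLinearMap.restrictScalars ℂ).map_smul _ _
          rw [h3, h4, Pi.smul_apply, hc (f γ) j l w0, smul_smul, mul_comm]
        rw [h2] at h1
        exact (smul_left_injective ℂ hw0 h1).symm }
  refine ⟨U0.toHomUnits, fun γ k w => ?_⟩
  exact hsum (f γ) k w

theorem irr_second {Γ₁ Γ₂ : Type} [Group Γ₁] [Group Γ₂] {a b n : Type} [Fintype a]
    [DecidableEq a] [Fintype b] [DecidableEq b] [Fintype n] [DecidableEq n] (h : a × b ≃ n)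
    (W : Γ₁ →* GL a ℂ) (U : Γ₂ →* GL b ℂ) (ρ : Γ₁ × Γ₂ →* GL n ℂ) (hρ : Irr ρ) (Q : GL n ℂ)
    (hQ : ∀ γ, ρ γ = Q * kk h W U γ * Q⁻¹) : Irr U := by
  obtain ⟨⟨x0⟩, hirr⟩ := hρ
  refine ⟨⟨(h.symm x0).2⟩, fun T hT => ?_⟩
  let Y : Submodule ℂ (n → ℂ) :=
    { carrier := {v | ∀ α, (fun k => ((Q⁻¹).1 *ᵥ v) (h (α, k))) ∈ T}
      add_mem' := by
        intro v w hv hw α
        have := T.add_mem (hv α) (hw α)
        simp only [Matrix.mulVec_add]
        exact this
      zero_mem' := by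
        intro α
        simp only [Matrix.mulVec_zero]
        exact T.zero_mem
      smul_mem' := by
        intro c v hv α
        have := T.smul_mem c (hv α)
        simp only [Matrix.mulVec_smul]
        exact this }
  have hYmem : ∀ v, v ∈ Y ↔ ∀ α, (fun k => ((Q⁻¹).1 *ᵥ v) (h (α, k))) ∈ T := fun v => Iff.rfl
  have hinv : ∀ γ, ∀ v ∈ Y, (ρ γ).1 *ᵥ v ∈ Y := by
    intro γ v hv α
    have e1 : (Q⁻¹).1 *ᵥ ((ρ γ).1 *ᵥ v) = (kk h W U γ).1 *ᵥ ((Q⁻¹).1 *ᵥ v) := by
      rw [hQ γ, Matrix.mulVec_mulVec, Matrix.mulVec_mulVec, ← Units.val_mul, ← Units.val_mul]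
      congr 2
      group
    rw [e1]
    set u := (Q⁻¹).1 *ᵥ v with hu
    have e2 : (fun k => ((kk h W U γ).1 *ᵥ u) (h (α, k))) =
        ∑ α', (W γ.1).1 α α' • ((U γ.2).1 *ᵥ (fun k => u (h (α', k)))) := by
      funext k
      simp only [Matrix.mulVec, dotProduct, Finset.sum_apply, Pi.smul_apply, smul_eq_mul]
      rw [← h.sum_comp, Fintype.sum_prod_type]
      refine Finset.sum_congr rfl fun α' _ => ?_
      rw [Finset.mul_sum]
      refine Finset.sum_congr rfl fun k' _ => ?_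
      rw [kk_val]
      simp only [Equiv.symm_apply_apply]
      ring
    rw [e2]
    exact T.sum_mem fun α' _ => T.smul_mem _ (hT γ.2 _ (hv α'))
  rcases hirr Y hinv with hY | hY
  · left
    rw [Submodule.eq_bot_iff]
    intro t ht
    have h1 : (Q.1 *ᵥ (fun x => t (h.symm x).2)) ∈ Y := by
      intro α
      rw [Matrix.mulVec_mulVec, ← Units.val_mul, inv_mul_cancel, Units.val_one, Matrix.one_mulVec]
      simpa using ht
    rw [hY, Submodule.mem_bot] at h1
    have h2 : (fun x => t (h.symm x).2) = (0 : n → ℂ) := by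
      have := congrArg (fun v => (Q⁻¹).1 *ᵥ v) h1
      simp only [Matrix.mulVec_mulVec, Matrix.mulVec_zero] at this
      rwa [← Units.val_mul, inv_mul_cancel, Units.val_one, Matrix.one_mulVec] at this
    funext k
    have h3 := congrFun h2 (h ((h.symm x0).1, k))
    simpa using h3
  · right
    rw [Submodule.eq_top_iff']
    intro s
    have h1 : (Q.1 *ᵥ (fun x => s (h.symm x).2)) ∈ Y := by rw [hY]; trivial
    have h2 := h1 (h.symm x0).1
    rw [Matrix.mulVec_mulVec, ← Units.val_mul, inv_mul_cancel, Units.val_one,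
      Matrix.one_mulVec] at h2
    simpa using h2

theorem abs_decomp {Γ₁ Γ₂ M : Type} [Group Γ₁] [Group Γ₂] [AddCommGroup M] [Module ℂ M]
    [Module (MonoidAlgebra ℂ Γ₁) M] [IsScalarTower ℂ (MonoidAlgebra ℂ Γ₁) M] [Module.Finite ℂ M]
    (W0 : Submodule (MonoidAlgebra ℂ Γ₁) M) [IsSimpleModule (MonoidAlgebra ℂ Γ₁) W0]
    (hIC : isotypicComponent (MonoidAlgebra ℂ Γ₁) M W0 = ⊤)
    (f : Γ₂ →* (M →ₗ[MonoidAlgebra ℂ Γ₁] M)) :
    ∃ (a b : ℕ) (B0 : Module.Basis (Fin a × Fin b) ℂ M) (W : Γ₁ →* GL (Fin a) ℂ)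
      (U : Γ₂ →* GL (Fin b) ℂ), Irr W ∧ ∀ γ g α k, MonoidAlgebra.of ℂ Γ₁ γ • f g (B0 (α, k)) =
        ∑ α', ∑ j, ((W γ).1 α' α * (U g).1 j k) • B0 (α', j) := by
  classical
  obtain ⟨b, ⟨e⟩⟩ := isotypic_decomp W0 hIC
  obtain ⟨U, hU⟩ := second_factor W0 b e f
  have : Module.Finite ℂ W0 := Module.Finite.of_injective (W0.subtype.restrictScalars ℂ)
    (Submodule.injective_subtype W0)
  let wb := Module.finBasis ℂ W0
  let W : Γ₁ →* GL (Fin (Module.finrank ℂ W0)) ℂ := mrep wb
  let B0 : Module.Basis (Fin (Module.finrank ℂ W0) × Fin b) ℂ M :=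
    ((Pi.basis fun _ : Fin b => wb).map (e.restrictScalars ℂ).symm).reindex
      ((Equiv.sigmaEquivProd _ _).trans (Equiv.prodComm _ _))
  have hB0 : ∀ α k, B0 (α, k) = e.symm (Pi.single k (wb α)) := by
    intro α k
    simp only [B0, Module.Basis.reindex_apply, Module.Basis.map_apply]
    have : ((Equiv.sigmaEquivProd (Fin b) (Fin (Module.finrank ℂ W0))).trans
        (Equiv.prodComm _ _)).symm (α, k) = ⟨k, α⟩ := rfl
    rw [this, Pi.basis_apply]
    rfl
  refine ⟨_, b, B0, W, U, irr_of_simple wb, ?_⟩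
  intro γ g α k
  simp only [hB0]
  rw [hU g k (wb α), Finset.smul_sum, Finset.sum_comm]
  refine Finset.sum_congr rfl fun j _ => ?_
  have hsm : ∀ (c : ℂ) (m : M), MonoidAlgebra.of ℂ Γ₁ γ • c • m =
      c • MonoidAlgebra.of ℂ Γ₁ γ • m := fun c m =>
    ((Algebra.lsmul ℂ ℂ M (MonoidAlgebra.of ℂ Γ₁ γ)) : M →ₗ[ℂ] M).map_smul c m
  rw [hsm, ← map_smul]
  have e3 : (MonoidAlgebra.of ℂ Γ₁ γ) • (Pi.single j (wb α) : Fin b → W0) =
      ∑ α', (W γ).1 α' α • (Pi.single j (wb α') : Fin b → W0) := by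
    rw [← Pi.single_smul, mrep_smul]
    funext i
    rw [Finset.sum_apply]
    by_cases hi : i = j
    · subst hi
      simp [W]
    · simp [Pi.single_eq_of_ne hi]
  rw [e3]
  have e4 : e.symm (∑ α', (W γ).1 α' α • (Pi.single j (wb α') : Fin b → W0)) =
      ∑ α', (W γ).1 α' α • e.symm (Pi.single j (wb α')) := by
    rw [map_sum]
    exact Finset.sum_congr rfl fun α' _ => (e.symm.toLinearMap.restrictScalars ℂ).map_smul _ _
  rw [e4, Finset.smul_sum]
  refine Finset.sum_congr rfl fun α' _ => ?_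
  rw [smul_smul, mul_comm]

/-- irreducible representations of a product are tensor products -/
theorem irr_prod {Γ₁ Γ₂ : Type} [Group Γ₁] [Group Γ₂] {n : Type} [Fintype n] [DecidableEq n]
    (ρ : Γ₁ × Γ₂ →* GL n ℂ) (hρ : Irr ρ) :
    ∃ (a b : ℕ) (h : Fin a × Fin b ≃ n) (W : Γ₁ →* GL (Fin a) ℂ) (U : Γ₂ →* GL (Fin b) ℂ)
      (Q : GL n ℂ), Irr W ∧ Irr U ∧ ∀ γ, ρ γ = Q * kk h W U γ * Q⁻¹ := by
  classical
  let σ : Representation ℂ Γ₁ (n → ℂ) := rep (ρ.comp (MonoidHom.inl Γ₁ Γ₂))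
  have hcomm : ∀ (g : Γ₂) (γ : Γ₁) (v : n → ℂ),
      (rep ρ (1, g)) (σ γ v) = σ γ (rep ρ (1, g) v) := by
    intro g γ v
    simp only [σ, rep_apply, MonoidHom.comp_apply, MonoidHom.inl_apply, Matrix.mulVec_mulVec]
    rw [← Units.val_mul, ← Units.val_mul, ← map_mul, ← map_mul]
    simp
  let f : Γ₂ →* (σ.asModule →ₗ[MonoidAlgebra ℂ Γ₁] σ.asModule) :=
    { toFun := fun g => Representation.IntertwiningMap.equivLinearMapAsModule σ σ
        (LinearMap.intertwiningMap_of_isIntertwiningMap σ σ (rep ρ (1, g)) (hcomm g))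
      map_one' := by
        ext v
        change (rep ρ (1, 1)) v = v
        have : ((1, 1) : Γ₁ × Γ₂) = 1 := rfl
        rw [this, map_one]
        rfl
      map_mul' := by
        intro g g'
        ext v
        change (rep ρ (1, g * g')) v = (rep ρ (1, g)) ((rep ρ (1, g')) v)
        have : ((1, g * g') : Γ₁ × Γ₂) = (1, g) * (1, g') := by simp
        rw [this, map_mul]
        rfl }
  have hf : ∀ g (v : σ.asModule), σ.asModuleEquiv (f g v) = rep ρ (1, g) (σ.asModuleEquiv v) :=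
    fun g v => rfl
  have hact : ∀ γ g (v : σ.asModule), σ.asModuleEquiv (MonoidAlgebra.of ℂ Γ₁ γ • f g v) =
      (ρ (γ, g)).1 *ᵥ (σ.asModuleEquiv v) := by
    intro γ g v
    rw [Representation.asModuleEquiv_map_smul, hf]
    simp only [Representation.asAlgebraHom_of]
    simp only [σ, rep_apply, MonoidHom.comp_apply, MonoidHom.inl_apply, Matrix.mulVec_mulVec]
    rw [← Units.val_mul, ← map_mul]
    simp
  have hne : Nonempty n := hρ.1
  have : Nontrivial σ.asModule := (inferInstance : Nontrivial (n → ℂ))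
  have : IsArtinian (MonoidAlgebra ℂ Γ₁) σ.asModule := isArtinian_of_tower ℂ inferInstance
  obtain ⟨W0, hW0⟩ := IsAtomic.exists_atom (Submodule (MonoidAlgebra ℂ Γ₁) σ.asModule)
  have : IsSimpleModule (MonoidAlgebra ℂ Γ₁) W0 := isSimpleModule_iff_isAtom.2 hW0
  have hIC : isotypicComponent (MonoidAlgebra ℂ Γ₁) σ.asModule W0 = ⊤ := by
    set IC := isotypicComponent (MonoidAlgebra ℂ Γ₁) σ.asModule W0 with hICdef
    have hinv : ∀ γ, ∀ v ∈ (IC.restrictScalars ℂ).map σ.asModuleEquiv.toLinearMap,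
        (ρ γ).1 *ᵥ v ∈ (IC.restrictScalars ℂ).map σ.asModuleEquiv.toLinearMap := by
      rintro ⟨γ, g⟩ _ ⟨v, hv, rfl⟩
      refine ⟨MonoidAlgebra.of ℂ Γ₁ γ • f g v, ?_, ?_⟩
      · apply IC.smul_mem
        exact (LinearMap.le_comap_isotypicComponent W0 (f g)) hv
      · exact hact γ g v
    rcases hρ.2 _ hinv with h | h
    · exfalso
      apply hW0.1
      rw [Submodule.eq_bot_iff]
      intro w hw
      have h1 : σ.asModuleEquiv w ∈ (IC.restrictScalars ℂ).map σ.asModuleEquiv.toLinearMap :=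
        ⟨w, W0.le_isotypicComponent hw, rfl⟩
      rw [h, Submodule.mem_bot] at h1
      exact (LinearEquiv.map_eq_zero_iff σ.asModuleEquiv).1 h1
    · rw [Submodule.eq_top_iff']
      intro v
      have h1 : σ.asModuleEquiv v ∈ (IC.restrictScalars ℂ).map σ.asModuleEquiv.toLinearMap := by
        rw [h]; trivial
      obtain ⟨v', hv', hvv⟩ := h1
      have : v' = v := σ.asModuleEquiv.injective hvv
      rwa [this] at hv'
  obtain ⟨a, b, B0, W, U, hW, hB⟩ := abs_decomp W0 hIC f
  let h : Fin a × Fin b ≃ n := (B0.map σ.asModuleEquiv).indexEquiv (Pi.basisFun ℂ n)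
  obtain ⟨Q, hQ⟩ := conj_of_basis ((B0.map σ.asModuleEquiv).reindex h)
  have hmain : ∀ γ, ρ γ = Q * kk h W U γ * Q⁻¹ := by
    rintro ⟨γ, g⟩
    apply hQ
    intro y
    obtain ⟨⟨α, k⟩, rfl⟩ := h.surjective y
    rw [← h.sum_comp, Fintype.sum_prod_type]
    simp only [Module.Basis.reindex_apply, Equiv.symm_apply_apply, kk_val, Module.Basis.map_apply]
    rw [← hact, hB, map_sum]
    refine Finset.sum_congr rfl fun α' _ => ?_
    rw [map_sum]
    exact Finset.sum_congr rfl fun j _ => map_smul _ _ _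
  exact ⟨a, b, h, W, U, Q, hW, irr_second h W U ρ hρ Q hmain, hmain⟩

end Vale.Agent.P002
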