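import Vale.Agent.P002.Free
import Vale.Agent.P002.Prod

/-! The density property, its closure under products, and free groups. -/

namespace Vale.Agent.P002

open Matrix

def Dense (N : ℕ) (L : IntermediateField ℚ ℂ) (Γ : Type) [Group Γ] : Prop :=
  ∀ (ι : Type) [Fintype ι] [DecidableEq ι] (n : ι → Type) [∀ i, Fintype (n i)]
    [∀ i, DecidableEq (n i)] (e : ι → ℕ), (∀ i, 0 < e i) →
    (∀ i, e i * Fintype.card (n i) ≤ N) → ∀ F ∈ Reg Γ n,
    (∀ ρ : Reps Γ n, ZZ e ρ → ∀ g : (i : ι) → GL (n i) ℂ,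
      F (fun i => (MulAut.conj (g i)).toMonoidHom.comp (ρ i)) = F ρ) →
    (∀ ρ : Reps Γ n, ZZ e ρ → Intg L ρ → F ρ = 0) →
    ∀ ρ : Reps Γ n, ZZ e ρ → (∀ i, Irr (ρ i)) → F ρ = 0

theorem dense_free {N : ℕ} {L : IntermediateField ℚ ℂ} (hL : Good N L) (α : Type) [Fintype α]
    [DecidableEq α] : Dense N L (FreeGroup α) := by
  intro ι _ _ n _ _ e he heN F hF _ h0 ρ hρ _
  exact free_dense hL e he heN F hF h0 ρ hρ

/-- tensor product of matrices -/
noncomputable def tp {a b n : Type} [Fintype a] [DecidableEq a] [Fintype b] [DecidableEq b]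
    [Fintype n] [DecidableEq n] (h : a × b ≃ n) : GL a ℂ × GL b ℂ →* GL n ℂ :=
  kk h (MonoidHom.id _) (MonoidHom.id _)

theorem kk_eq {Γ₁ Γ₂ : Type} [Group Γ₁] [Group Γ₂] {a b n : Type} [Fintype a]
    [DecidableEq a] [Fintype b] [DecidableEq b] [Fintype n] [DecidableEq n] (h : a × b ≃ n)
    (W : Γ₁ →* GL a ℂ) (U : Γ₂ →* GL b ℂ) (γ : Γ₁ × Γ₂) :
    kk h W U γ = tp h (W γ.1, U γ.2) := by
  apply Units.ext
  ext x y
  simp [tp, kk_val]

theorem dense_prod {N : ℕ} {L : IntermediateField ℚ ℂ} {Γ₁ Γ₂ : Type} [Group Γ₁] [Group Γ₂]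
    (h1 : Dense N L Γ₁) (h2 : Dense N L Γ₂) : Dense N L (Γ₁ × Γ₂) := by
  intro ι _ _ n _ _ e he heN F hF hinv h0 ρ hρ hirr
  choose a b h W U Q hW hU hQ using fun i => irr_prod (ρ i) (hirr i)
  let K : Reps Γ₁ (fun i => Fin (a i)) → Reps Γ₂ (fun i => Fin (b i)) → Reps (Γ₁ × Γ₂) n :=
    fun W' U' i => kk (h i) (W' i) (U' i)
  have hcard : ∀ i, a i * b i = Fintype.card (n i) := by
    intro i
    have := Fintype.card_congr (h i)
    simpa using this
  have ha : ∀ i, 0 < a i := fun i => by
    obtain ⟨x⟩ := (hW i).1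
    exact lt_of_le_of_lt (Nat.zero_le _) x.2
  have hb : ∀ i, 0 < b i := fun i => by
    obtain ⟨x⟩ := (hU i).1
    exact lt_of_le_of_lt (Nat.zero_le _) x.2
  have hdet : ∀ (W' : Reps Γ₁ (fun i => Fin (a i))) (U' : Reps Γ₂ (fun i => Fin (b i)))
      (γ : Γ₁ × Γ₂), ∏ i, (K W' U' i γ).1.det ^ e i =
        (∏ i, (W' i γ.1).1.det ^ (e i * b i)) * ∏ i, (U' i γ.2).1.det ^ (e i * a i) := by
    intro W' U' γ
    rw [← Finset.prod_mul_distrib]
    refine Finset.prod_congr rfl fun i _ => ?_
    simp only [K, kk_det, Fintype.card_fin, mul_pow, ← pow_mul]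
    rw [mul_comm (b i), mul_comm (a i)]
  have hZK : ∀ W' U', ZZ (fun i => e i * b i) W' → ZZ (fun i => e i * a i) U' → ZZ e (K W' U') := by
    intro W' U' hW' hU' γ
    rw [hdet, hW' γ.1, hU' γ.2, one_mul]
  have hρK : ∀ γ, ∏ i, (K W U i γ).1.det ^ e i = 1 := by
    intro γ
    rw [← hρ γ]
    refine Finset.prod_congr rfl fun i _ => ?_
    have : (ρ i γ).1.det = (K W U i γ).1.det := by
      rw [hQ i γ, Units.val_mul, Units.val_mul, det_mul, det_mul, mul_comm, ← mul_assoc, ← det_mul,
        ← Units.val_mul, inv_mul_cancel, Units.val_one, det_one, one_mul]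
    rw [this]
  have hWZ : ZZ (fun i => e i * b i) W := by
    intro γ
    have := hρK (γ, 1)
    rw [hdet] at this
    simpa using this
  have hUZ : ZZ (fun i => e i * a i) U := by
    intro γ
    have := hρK (1, γ)
    rw [hdet] at this
    simpa using this
  have hInt : ∀ W' U', Intg L W' → Intg L U' → Intg L (K W' U') := by
    intro W' U' hW' hU' i γ x y
    simp only [K, kk_val]
    exact Subring.mul_mem _ (hW' i _ _ _) (hU' i _ _ _)
  have step1 : ∀ U', ZZ (fun i => e i * a i) U' → Intg L U' → F (K W U') = 0 := by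
    intro U' hU'Z hU'I
    refine h1 ι (fun i => Fin (a i)) (fun i => e i * b i) (fun i => Nat.mul_pos (he i) (hb i))
      ?_ (fun W' => F (K W' U')) ?_ ?_ ?_ W hWZ hW
    · intro i
      have := heN i
      rw [← hcard i] at this
      calc e i * b i * Fintype.card (Fin (a i)) = e i * (a i * b i) := by
            rw [Fintype.card_fin]; ring
        _ ≤ N := this
    · clear h0 hinv
      unfold Reg at hF
      induction hF using Algebra.adjoin_induction with
      | mem F hF =>
        obtain ⟨i, γ, x, y, rfl⟩ := hF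
        have : (fun W' : Reps Γ₁ (fun i => Fin (a i)) => (K W' U' i γ).1 x y) =
            (U' i γ.2).1 ((h i).symm x).2 ((h i).symm y).2 •
              (fun W' : Reps Γ₁ (fun i => Fin (a i)) =>
                (W' i γ.1).1 ((h i).symm x).1 ((h i).symm y).1) := by
          funext W'
          simp only [K, kk_val, Pi.smul_apply, smul_eq_mul]
          ring
        rw [this]
        exact Subalgebra.smul_mem _ (Algebra.subset_adjoin
          (show _ ∈ gens Γ₁ (fun i => Fin (a i)) from ⟨i, γ.1, _, _, rfl⟩)) _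
      | algebraMap r => exact Subalgebra.algebraMap_mem _ r
      | add x y _ _ h1 h2 => exact Subalgebra.add_mem _ h1 h2
      | mul x y _ _ h1 h2 => exact Subalgebra.mul_mem _ h1 h2
    · intro W' hW' g
      have := hinv (K W' U') (hZK _ _ hW' hU'Z) (fun i => tp (h i) (g i, 1))
      rw [← this]
      congr 1
      funext i
      ext1 γ
      simp only [K, MonoidHom.comp_apply, kk_eq, MulEquiv.coe_toMonoidHom, MulAut.conj_apply]
      rw [← map_inv, ← map_mul, ← map_mul]
      simp
    · intro W' hW' hW'I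
      exact h0 _ (hZK _ _ hW' hU'Z) (hInt _ _ hW'I hU'I)
  have step2 : F (K W U) = 0 := by
    refine h2 ι (fun i => Fin (b i)) (fun i => e i * a i) (fun i => Nat.mul_pos (he i) (ha i))
      ?_ (fun U' => F (K W U')) ?_ ?_ step1 U hUZ hU
    · intro i
      have := heN i
      rw [← hcard i] at this
      calc e i * a i * Fintype.card (Fin (b i)) = e i * (a i * b i) := by
            rw [Fintype.card_fin]; ring
        _ ≤ N := this
    · clear h0 hinv step1
      unfold Reg at hF
      induction hF using Algebra.adjoin_induction with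
      | mem F hF =>
        obtain ⟨i, γ, x, y, rfl⟩ := hF
        have : (fun U' : Reps Γ₂ (fun i => Fin (b i)) => (K W U' i γ).1 x y) =
            (W i γ.1).1 ((h i).symm x).1 ((h i).symm y).1 •
              (fun U' : Reps Γ₂ (fun i => Fin (b i)) =>
                (U' i γ.2).1 ((h i).symm x).2 ((h i).symm y).2) := by
          funext U'
          simp only [K, kk_val, Pi.smul_apply, smul_eq_mul]
        rw [this]
        exact Subalgebra.smul_mem _ (Algebra.subset_adjoin
          (show _ ∈ gens Γ₂ (fun i => Fin (b i)) from ⟨i, γ.2, _, _, rfl⟩)) _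
      | algebraMap r => exact Subalgebra.algebraMap_mem _ r
      | add x y _ _ h1 h2 => exact Subalgebra.add_mem _ h1 h2
      | mul x y _ _ h1 h2 => exact Subalgebra.mul_mem _ h1 h2
    · intro U' hU' g
      have := hinv (K W U') (hZK _ _ hWZ hU') (fun i => tp (h i) (1, g i))
      rw [← this]
      congr 1
      funext i
      ext1 γ
      simp only [K, MonoidHom.comp_apply, kk_eq, MulEquiv.coe_toMonoidHom, MulAut.conj_apply]
      rw [← map_inv, ← map_mul, ← map_mul]
      simp
  have hfin := hinv (K W U) hρK Q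
  rw [← step2, ← hfin]
  congr 1
  funext i
  ext1 γ
  exact hQ i γ

theorem dense_congr {N : ℕ} {L : IntermediateField ℚ ℂ} {Γ Γ' : Type} [Group Γ] [Group Γ']
    (φ : Γ ≃* Γ') (h1 : Dense N L Γ) : Dense N L Γ' := by
  intro ι _ _ n _ _ e he heN F hF hinv h0 ρ hρ hirr
  have key := h1 ι n e he heN (fun τ => F (fun i => (τ i).comp φ.symm.toMonoidHom)) ?_ ?_ ?_
    (fun i => (ρ i).comp φ.toMonoidHom) ?_ ?_
  · have : (fun i => ((ρ i).comp φ.toMonoidHom).comp φ.symm.toMonoidHom) = ρ := by
      funext i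
      ext1 γ
      simp
    simp only [this] at key
    exact key
  · clear h0 hinv
    unfold Reg at hF
    induction hF using Algebra.adjoin_induction with
    | mem F hF =>
      obtain ⟨i, γ, x, y, rfl⟩ := hF
      exact Algebra.subset_adjoin (show _ ∈ gens Γ n from ⟨i, φ.symm γ, x, y, rfl⟩)
    | algebraMap r => exact Subalgebra.algebraMap_mem _ r
    | add x y _ _ h1 h2 => exact Subalgebra.add_mem _ h1 h2
    | mul x y _ _ h1 h2 => exact Subalgebra.mul_mem _ h1 h2
  · intro τ hτ g
    exact hinv (fun i => (τ i).comp φ.symm.toMonoidHom) (fun γ => hτ (φ.symm γ)) g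
  · intro τ hτ hI
    exact h0 _ (fun γ => hτ (φ.symm γ)) (fun i γ x y => hI i (φ.symm γ) x y)
  · intro γ
    exact hρ (φ γ)
  · intro i
    refine ⟨(hirr i).1, fun T hT => (hirr i).2 T fun γ v hv => ?_⟩
    have := hT (φ.symm γ) v hv
    simpa using this

theorem dense_trivial (N : ℕ) (L : IntermediateField ℚ ℂ) (Γ : Type) [Group Γ] [Subsingleton Γ] :
    Dense N L Γ := by
  intro ι _ _ n _ _ e he heN F hF _ h0 ρ hρ _
  apply h0 ρ hρ
  intro i γ x y
  have : γ = 1 := Subsingleton.elim _ _
  rw [this, map_one]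
  exact mat_one_mem x y

def consEquiv {k : ℕ} (G : Fin (k + 1) → Type) [∀ j, Group (G j)] :
    G 0 × ((j : Fin k) → G j.succ) ≃* ((j : Fin (k + 1)) → G j) where
  toFun p := Fin.cons p.1 p.2
  invFun f := (f 0, fun j => f j.succ)
  left_inv p := by simp
  right_inv f := by
    funext j
    refine Fin.cases ?_ (fun i => ?_) j <;> simp
  map_mul' p q := by
    funext j
    refine Fin.cases ?_ (fun i => ?_) j <;> simp

theorem dense_pi (N : ℕ) (L : IntermediateField ℚ ℂ) (k : ℕ) : ∀ (G : Fin k → Type)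
    [∀ j, Group (G j)], (∀ j, Dense N L (G j)) → Dense N L ((j : Fin k) → G j) := by
  induction k with
  | zero =>
    intro G _ _
    exact dense_trivial N L _
  | succ k ih =>
    intro G _ h
    exact dense_congr (consEquiv G) (dense_prod (h 0) (ih (fun j => G j.succ) fun j => h j.succ))

end Vale.Agent.P002
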