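import Vale.Agent.P002.Dense

/-! The number field, and finite abelian groups. -/

namespace Vale.Agent.P002

open Matrix

theorem exists_good (N : ℕ) : ∃ L : IntermediateField ℚ ℂ, FiniteDimensional ℚ L ∧ Good N L := by
  classical
  let S1 : Set ℂ := {z | ∃ m, 0 < m ∧ m ≤ N ∧ z ^ m = 1}
  have hS1 : S1.Finite := by
    have : S1 ⊆ ⋃ m ∈ Finset.Icc 1 N, {z : ℂ | z ^ m = 1} := by
      rintro z ⟨m, h1, h2, h3⟩
      simp only [Set.mem_iUnion]
      exact ⟨m, Finset.mem_Icc.2 ⟨h1, h2⟩, h3⟩
    refine Set.Finite.subset ?_ this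
    refine Set.Finite.biUnion (Finset.finite_toSet _) fun m hm => ?_
    have hm1 : 0 < m := (Finset.mem_Icc.1 hm).1
    have : {z : ℂ | z ^ m = 1} ⊆ ((Polynomial.nthRoots m (1 : ℂ)).toFinset : Set ℂ) := by
      intro z hz
      simp only [Finset.mem_coe, Multiset.mem_toFinset]
      exact (Polynomial.mem_nthRoots hm1).2 hz
    exact (Finset.finite_toSet _).subset this
  let q : ℂ := ((Real.sqrt 2 : ℝ) : ℂ)
  have hq2 : q ^ 2 = 2 := by
    simp only [q]
    norm_cast
    exact Real.sq_sqrt (by norm_num)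
  have hqint : IsIntegral ℤ q := by
    refine IsIntegral.of_pow (n := 2) (by norm_num) ?_
    rw [hq2]
    exact isIntegral_algebraMap (x := (2 : ℤ)) (R := ℤ) (A := ℂ)
  let S : Set ℂ := insert q S1
  have hSfin : S.Finite := hS1.insert q
  have hSint : ∀ z ∈ S, IsIntegral ℤ z := by
    intro z hz
    rcases hz with rfl | ⟨m, h1, h2, h3⟩
    · exact hqint
    · exact root_integral h1 h3
  have hfin : Finite S := hSfin
  refine ⟨IntermediateField.adjoin ℚ S, ?_, ?_⟩
  · exact IntermediateField.finiteDimensional_adjoin fun z hz => (hSint z hz).tower_top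
  · have hsub : ∀ z ∈ S, z ∈ IntermediateField.adjoin ℚ S :=
      fun z hz => IntermediateField.subset_adjoin ℚ S hz
    constructor
    · intro z m h1 h2 h3
      exact hsub z (Set.mem_insert_of_mem _ ⟨m, h1, h2, h3⟩)
    · have hqL := hsub q (Set.mem_insert _ _)
      have hu : (1 + q) * (q - 1) = 1 := by
        have : (1 + q) * (q - 1) = q ^ 2 - 1 := by ring
        rw [this, hq2]; norm_num
      refine ⟨⟨1 + q, q - 1, hu, by rw [mul_comm]; exact hu⟩, ?_, ?_, ?_⟩
      · exact ⟨isIntegral_one.add hqint, add_mem (one_mem _) hqL⟩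
      · exact ⟨hqint.sub isIntegral_one, sub_mem hqL (one_mem _)⟩
      · intro m m' hmm
        have h1 := congrArg (fun u : ℂˣ => (u : ℂ)) hmm
        simp only [Units.val_pow_eq_pow_val, q] at h1
        have h2 : (1 + Real.sqrt 2) ^ m = (1 + Real.sqrt 2) ^ m' := by
          exact_mod_cast h1
        have h3 : (1 : ℝ) < 1 + Real.sqrt 2 := by
          have := Real.sqrt_pos.2 (show (0 : ℝ) < 2 by norm_num)
          linarith
        exact (pow_right_injective₀ (by linarith) h3.ne') h2

/-- an irreducible representation of a commutative group acts by scalars and is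
one-dimensional -/
theorem irr_comm {A : Type} [CommGroup A] {n : Type} [Fintype n] [DecidableEq n] (ρ : A →* GL n ℂ)
    (hρ : Irr ρ) : ∀ x y : n, x = y := by
  obtain ⟨hne, hirr⟩ := hρ
  have hsc : ∀ γ, ∃ c : ℂ, ∀ v, (ρ γ).1 *ᵥ v = c • v := by
    intro γ
    have : Nontrivial (n → ℂ) := inferInstance
    obtain ⟨c, hc⟩ := Module.End.exists_eigenvalue ((ρ γ).1.mulVecLin)
    refine ⟨c, ?_⟩
    have hT : ∀ δ, ∀ v ∈ Module.End.eigenspace ((ρ γ).1.mulVecLin) c,
        (ρ δ).1 *ᵥ v ∈ Module.End.eigenspace ((ρ γ).1.mulVecLin) c := by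
      intro δ v hv
      rw [Module.End.mem_eigenspace_iff, mulVecLin_apply] at hv ⊢
      rw [Matrix.mulVec_mulVec, ← Units.val_mul, ← map_mul, mul_comm, map_mul, Units.val_mul,
        ← Matrix.mulVec_mulVec, hv, Matrix.mulVec_smul]
    rcases hirr _ hT with h | h
    · exact absurd h hc
    · intro v
      have : v ∈ Module.End.eigenspace ((ρ γ).1.mulVecLin) c := by rw [h]; trivial
      rwa [Module.End.mem_eigenspace_iff, mulVecLin_apply] at this
  intro x y
  by_contra hxy
  have hT : ∀ γ, ∀ v ∈ Submodule.span ℂ {(Pi.single x 1 : n → ℂ)},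
      (ρ γ).1 *ᵥ v ∈ Submodule.span ℂ {(Pi.single x 1 : n → ℂ)} := by
    intro γ v hv
    obtain ⟨c, hc⟩ := hsc γ
    rw [hc]
    exact Submodule.smul_mem _ _ hv
  rcases hirr _ hT with h | h
  · rw [Submodule.span_singleton_eq_bot] at h
    have := congrFun h x
    simp at this
  · have : (Pi.single y 1 : n → ℂ) ∈ Submodule.span ℂ {(Pi.single x 1 : n → ℂ)} := by
      rw [h]; trivial
    obtain ⟨c, hc⟩ := Submodule.mem_span_singleton.1 this
    have h1 := congrFun hc y
    rw [Pi.smul_apply, Pi.single_eq_same, Pi.single_eq_of_ne (Ne.symm hxy), smul_zero] at h1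
    exact zero_ne_one h1

theorem dense_abelian {N : ℕ} {L : IntermediateField ℚ ℂ} (hL : Good N L) (A : Type) [CommGroup A]
    [Finite A] (hA : Nat.card A ≤ N) : Dense N L A := by
  intro ι _ _ n _ _ e he heN F hF _ h0 ρ hρ hirr
  apply h0 ρ hρ
  intro i γ x y
  have hxy := irr_comm (ρ i) (hirr i)
  have hx : x = y := hxy x y
  subst hx
  have hsub : Subsingleton (n i) := ⟨hxy⟩
  have hmul : ∀ M M' : Matrix (n i) (n i) ℂ, (M * M') x x = M x x * M' x x := by
    intro M M'
    rw [Matrix.mul_apply]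
    rw [Finset.sum_eq_single x]
    · intro b _ hb
      exact absurd (hxy b x) hb
    · intro h
      exact absurd (Finset.mem_univ x) h
  have hpow : ∀ k : ℕ, (ρ i (γ ^ k)).1 x x = ((ρ i γ).1 x x) ^ k := by
    intro k
    induction k with
    | zero => simp
    | succ k ih => rw [pow_succ, map_mul, Units.val_mul, hmul, ih, pow_succ]
  have h1 : ((ρ i γ).1 x x) ^ Nat.card A = 1 := by
    rw [← hpow, pow_card_eq_one']
    simp
  have hpos : 0 < Nat.card A := Nat.card_pos
  exact ⟨root_integral hpos h1, hL.root _ _ hpos hA h1⟩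

end Vale.Agent.P002
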