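import Vale.Agent.P002.Base

/-! Free groups: closure of the integral points. -/

namespace Vale.Agent.P002

open Matrix

theorem root_integral {z : ℂ} {m : ℕ} (hm : 0 < m) (h : z ^ m = 1) : IsIntegral ℤ z := by
  refine IsIntegral.of_pow hm ?_
  rw [h]
  exact isIntegral_one

theorem zpow_mem_OO {L : IntermediateField ℚ ℂ} {u : ℂˣ} (h1 : (u : ℂ) ∈ OO L)
    (h2 : ((u⁻¹ : ℂˣ) : ℂ) ∈ OO L) (z : ℤ) : ((u ^ z : ℂˣ) : ℂ) ∈ OO L := by
  obtain ⟨k, rfl | rfl⟩ := z.eq_nat_or_neg
  · rw [_root_.zpow_natCast, Units.val_pow_eq_pow_val]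
    exact Subring.pow_mem _ h1 _
  · rw [_root_.zpow_neg, _root_.zpow_natCast, ← _root_.inv_pow, Units.val_pow_eq_pow_val]
    exact Subring.pow_mem _ h2 _

theorem prod_zpow_sum {J : Type} (S : Finset J) (s : ℂˣ) (z : J → ℤ) :
    ∏ j ∈ S, s ^ (z j) = s ^ (∑ j ∈ S, z j) := by
  classical
  induction S using Finset.induction_on with
  | empty => simp
  | insert a S ha ih =>
    rw [Finset.prod_insert ha, Finset.sum_insert ha, ih, _root_.zpow_add]

theorem gl_decomp {m : Type} [Fintype m] [DecidableEq m] (S : Submonoid (GL m ℂ))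
    (hS : ∀ i j hij s, tv (m := m) i j hij s ∈ S) (g : GL m ℂ) :
    ∃ x ∈ S, ∃ y ∈ S, ∃ t : m → ℂˣ, g = x * dg t * y ∧ x.1.det = 1 ∧ y.1.det = 1 := by
  obtain ⟨L, L', D, h⟩ := Pivot.exists_list_transvec_mul_diagonal_mul_list_transvec g.1
  have hx : ∀ L : List (TransvectionStruct m ℂ),
      ((L.map (fun t => tv t.i t.j t.hij t.c)).prod : GL m ℂ).1 =
        (L.map TransvectionStruct.toMatrix).prod := by
    intro L
    have := map_list_prod (Units.coeHom (Matrix m m ℂ)) (L.map (fun t => tv t.i t.j t.hij t.c))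
    simp only [Units.coeHom_apply, List.map_map] at this
    exact this
  have hD : ∀ b, D b ≠ 0 := by
    have hdet : g.1.det ≠ 0 := by
      have := (Matrix.isUnit_iff_isUnit_det g.1).1 g.isUnit
      exact this.ne_zero
    rw [h, det_mul, det_mul, TransvectionStruct.det_toMatrix_prod,
      TransvectionStruct.det_toMatrix_prod, det_diagonal, one_mul, mul_one] at hdet
    exact fun b => (Finset.prod_ne_zero_iff.1 hdet) b (Finset.mem_univ b)
  refine ⟨(L.map (fun t => tv t.i t.j t.hij t.c)).prod, ?_,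
    (L'.map (fun t => tv t.i t.j t.hij t.c)).prod, ?_, fun b => Units.mk0 (D b) (hD b), ?_, ?_, ?_⟩
  · apply Submonoid.list_prod_mem
    intro x hx
    obtain ⟨t, _, rfl⟩ := List.mem_map.1 hx
    exact hS _ _ _ _
  · apply Submonoid.list_prod_mem
    intro x hx
    obtain ⟨t, _, rfl⟩ := List.mem_map.1 hx
    exact hS _ _ _ _
  · apply Units.ext
    rw [Units.val_mul, Units.val_mul, hx, hx, dg_val]
    simpa using h
  · rw [hx, TransvectionStruct.det_toMatrix_prod]
  · rw [hx, TransvectionStruct.det_toMatrix_prod]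

section

variable {ι α : Type} [Fintype ι] [DecidableEq ι] [Fintype α] [DecidableEq α]
  {n : ι → Type} [∀ i, Fintype (n i)] [∀ i, DecidableEq (n i)]

theorem torus_clos {N : ℕ} {L : IntermediateField ℚ ℂ} (hL : Good N L) (e : ι → ℕ)
    (he : ∀ i, 0 < e i) (heN : ∀ i, e i * Fintype.card (n i) ≤ N)
    (t : α × (Σ i, n i) → ℂˣ) (ht : ∀ a, ∏ j, (t (a, j)) ^ (e j.1) = 1) :
    dd (n := n) t ∈ clos (Algebra.adjoin ℂ (TT n)) (HH (ι := ι) (α := α) (n := n) L e) TT_L TT_R := by
  classical
  by_cases hJ : Nonempty (Σ i, n i)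
  · obtain ⟨j0⟩ := hJ
    have key := torus_gen j0 (fun j : (Σ i, n i) => e j.1) (he j0.1)
      ((clos (Algebra.adjoin ℂ (TT n)) (HH (ι := ι) (α := α) (n := n) L e) TT_L TT_R).comap
        (dd (n := n))) ?_ ?_ t ht
    · exact key
    · intro c hc s
      rw [Submonoid.mem_comap]
      obtain ⟨u, hu1, hu2, hu3⟩ := hL.unit
      refine one_param (H := HH (ι := ι) (α := α) (n := n) L e) (hL := TT_L) (hR := TT_R)
        (fun s : ℂˣ => dd (n := n) (fun x => s ^ c x)) (Lau_dd c) ?_ s
      refine Set.infinite_of_injective_forall_mem (f := fun m : ℕ => u ^ m) hu3 ?_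
      intro m
      have hm1 : ((u ^ m : ℂˣ) : ℂ) ∈ OO L := by
        rw [Units.val_pow_eq_pow_val]; exact Subring.pow_mem _ hu1 _
      have hm2 : (((u ^ m : ℂˣ)⁻¹ : ℂˣ) : ℂ) ∈ OO L := by
        rw [← _root_.inv_pow, Units.val_pow_eq_pow_val]; exact Subring.pow_mem _ hu2 _
      apply dd_mem_HH
      · intro x
        exact zpow_mem_OO hm1 hm2 _
      · intro x
        rw [← _root_.zpow_neg]
        exact zpow_mem_OO hm1 hm2 _
      · intro a
        have h1 : ∀ j : (Σ i, n i), ((u ^ m) ^ c (a, j)) ^ (e j.1) =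
            (u ^ m) ^ ((e j.1 : ℤ) * c (a, j)) := by
          intro j
          rw [← _root_.zpow_natCast, ← _root_.zpow_mul, mul_comm]
        simp only [h1]
        rw [prod_zpow_sum, hc a, _root_.zpow_zero]
    · intro t ht1 ht2
      rw [Submonoid.mem_comap]
      apply le_clos
      have hcard : 0 < Fintype.card (n j0.1) := Fintype.card_pos_iff.2 ⟨j0.2⟩
      have heN0 : e j0.1 ≤ N := le_trans (Nat.le_mul_of_pos_right _ hcard) (heN j0.1)
      apply dd_mem_HH
      · intro x
        have h1 : ((t x : ℂˣ) : ℂ) ^ (e j0.1) = 1 := by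
          have := congrArg (fun u : ℂˣ => (u : ℂ)) (ht1 x)
          simpa using this
        exact ⟨root_integral (he _) h1, hL.root _ _ (he _) heN0 h1⟩
      · intro x
        have h1 : (((t x)⁻¹ : ℂˣ) : ℂ) ^ (e j0.1) = 1 := by
          have h2 : ((t x)⁻¹) ^ (e j0.1) = 1 := by rw [_root_.inv_pow, ht1 x, inv_one]
          have := congrArg (fun u : ℂˣ => (u : ℂ)) h2
          simpa using this
        exact ⟨root_integral (he _) h1, hL.root _ _ (he _) heN0 h1⟩
      · exact ht2
  · have hone : dd (n := n) t = 1 := by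
      funext k
      have : IsEmpty (n k.1) := ⟨fun b => hJ ⟨⟨k.1, b⟩⟩⟩
      exact Subsingleton.elim _ _
    rw [hone]
    exact Submonoid.one_mem _

theorem clos_all {N : ℕ} {L : IntermediateField ℚ ℂ} (hL : Good N L) (e : ι → ℕ)
    (he : ∀ i, 0 < e i) (heN : ∀ i, e i * Fintype.card (n i) ≤ N)
    (g : GG ι α n) (hg : ∀ a, ∏ i, (g (i, a)).1.det ^ e i = 1) :
    g ∈ clos (Algebra.adjoin ℂ (TT n)) (HH (ι := ι) (α := α) (n := n) L e) TT_L TT_R := by
  classical
  set S := clos (Algebra.adjoin ℂ (TT n)) (HH (ι := ι) (α := α) (n := n) L e) TT_L TT_R with hS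
  have h1 : ∀ k : ι × α, ∃ x ∈ S.comap (MonoidHom.mulSingle (fun k : ι × α => GL (n k.1) ℂ) k),
      ∃ y ∈ S.comap (MonoidHom.mulSingle (fun k : ι × α => GL (n k.1) ℂ) k), ∃ t : n k.1 → ℂˣ,
      g k = x * dg t * y ∧ x.1.det = 1 ∧ y.1.det = 1 := by
    intro k
    apply gl_decomp
    intro i j hij s
    exact tv_mem_clos L e k i j hij s
  choose x hx y hy t ht hdx hdy using h1
  have hxS : (x : GG ι α n) ∈ S := Submonoid.pi_mem_of_mulSingle_mem x (fun k => hx k)
  have hyS : (y : GG ι α n) ∈ S := Submonoid.pi_mem_of_mulSingle_mem y (fun k => hy k)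
  have hdS : dd (n := n) (fun p : α × (Σ i, n i) => t (p.2.1, p.1) p.2.2) ∈ S := by
    apply torus_clos hL e he heN
    intro a
    apply Units.ext
    rw [Units.coe_prod, Units.val_one, ← hg a, Fintype.prod_sigma]
    refine Finset.prod_congr rfl fun i _ => ?_
    rw [ht (i, a), Units.val_mul, Units.val_mul, det_mul, det_mul, hdx, hdy, one_mul, mul_one,
      dg_val, det_diagonal, ← Finset.prod_pow]
    simp
  have : g = x * dd (n := n) (fun p : α × (Σ i, n i) => t (p.2.1, p.1) p.2.2) * y := by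
    funext k
    rw [ht k]
    rfl
  rw [this]
  exact S.mul_mem (S.mul_mem hxS hdS) hyS

/-- the free-group case -/
theorem free_dense {N : ℕ} {L : IntermediateField ℚ ℂ} (hL : Good N L) (e : ι → ℕ)
    (he : ∀ i, 0 < e i) (heN : ∀ i, e i * Fintype.card (n i) ≤ N)
    (F : Reps (FreeGroup α) n → ℂ) (hF : F ∈ Reg (FreeGroup α) n)
    (h0 : ∀ ρ : Reps (FreeGroup α) n, ZZ e ρ → Intg L ρ → F ρ = 0)
    (ρ : Reps (FreeGroup α) n) (hρ : ZZ e ρ) : F ρ = 0 := by
  classical
  let Θ : GG ι α n → Reps (FreeGroup α) n := fun g i => FreeGroup.lift fun a => g (i, a)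
  have hreg : ∀ (i : ι) (γ : FreeGroup α), (∀ x y, (fun g : GG ι α n => ((Θ g) i γ).1 x y) ∈
      Algebra.adjoin ℂ (TT (ι := ι) (α := α) n)) := by
    intro i γ
    induction γ using FreeGroup.induction_on with
    | C1 =>
      intro x y
      simp only [map_one, Units.val_one]
      exact Subalgebra.algebraMap_mem _ ((1 : Matrix (n i) (n i) ℂ) x y)
    | of a =>
      intro x y
      simp only [Θ, FreeGroup.lift_apply_of]
      exact TT_ent (i, a) x y
    | inv_of a _ =>
      intro x y
      simp only [Θ, map_inv, FreeGroup.lift_apply_of]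
      exact TT_inv (i, a) x y
    | mul a b ha hb =>
      intro x y
      have : (fun g : GG ι α n => ((Θ g) i (a * b)).1 x y) =
          ∑ z, (fun g : GG ι α n => ((Θ g) i a).1 x z) * (fun g => ((Θ g) i b).1 z y) := by
        funext g
        simp only [map_mul, Units.val_mul, Matrix.mul_apply, Finset.sum_apply, Pi.mul_apply]
      rw [this]
      exact Subalgebra.sum_mem _ fun z _ => Subalgebra.mul_mem _ (ha x z) (hb z y)
  have hFT : (fun g => F (Θ g)) ∈ Algebra.adjoin ℂ (TT (ι := ι) (α := α) n) := by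
    clear h0
    unfold Reg at hF
    induction hF using Algebra.adjoin_induction with
    | mem F hF =>
      obtain ⟨i, γ, x, y, rfl⟩ := hF
      exact hreg i γ x y
    | algebraMap r => exact Subalgebra.algebraMap_mem _ r
    | add x y _ _ h1 h2 => exact Subalgebra.add_mem _ h1 h2
    | mul x y _ _ h1 h2 => exact Subalgebra.mul_mem _ h1 h2
  let g : GG ι α n := fun k => ρ k.1 (FreeGroup.of k.2)
  have hΘ : Θ g = ρ := by
    funext i
    apply FreeGroup.ext_hom
    intro a
    simp [Θ, g]
  have hg : g ∈ clos (Algebra.adjoin ℂ (TT n)) (HH (ι := ι) (α := α) (n := n) L e) TT_L TT_R := by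
    apply clos_all hL e he heN
    intro a
    exact hρ (FreeGroup.of a)
  have := hg (fun g => F (Θ g)) hFT ?_
  · simpa [hΘ] using this
  · rintro h ⟨h1, h2, h3⟩
    apply h0
    · intro γ
      induction γ using FreeGroup.induction_on with
      | C1 => simp
      | of a => simpa [Θ] using h3 a
      | inv_of a _ =>
        have e1 : ∀ i, ((h (i, a))⁻¹).1.det = ((h (i, a)).1.det)⁻¹ := by
          intro i
          have : ((h (i, a))⁻¹).1.det * (h (i, a)).1.det = 1 := by
            rw [← det_mul, ← Units.val_mul, inv_mul_cancel, Units.val_one, det_one]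
          exact eq_inv_of_mul_eq_one_left this
        simp only [Θ, map_inv, FreeGroup.lift_apply_of, e1, _root_.inv_pow, Finset.prod_inv_distrib,
          h3 a, inv_one]
      | mul a b ha hb =>
        simp only [map_mul, Units.val_mul, det_mul, mul_pow, Finset.prod_mul_distrib, ha, hb,
          mul_one]
    · intro i γ
      induction γ using FreeGroup.induction_on with
      | C1 =>
        intro x y
        simpa using mat_one_mem x y
      | of a =>
        intro x y
        simpa [Θ] using h1 (i, a) x y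
      | inv_of a _ =>
        intro x y
        simp only [Θ, map_inv, FreeGroup.lift_apply_of]
        exact h2 (i, a) x y
      | mul a b ha hb =>
        intro x y
        rw [map_mul, Units.val_mul]
        exact mat_mul_mem ha hb x y

end

end Vale.Agent.P002
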