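import Vale.Agent.P002.Base

/-! Irreducible representations of a product of two groups are tensor products. -/

namespace Vale.Agent.P002

open Matrix

/-- the linear action of a matrix representation -/
noncomputable def rep {Γ : Type} [Group Γ] {n : Type} [Fintype n] [DecidableEq n]
    (ρ : Γ →* GL n ℂ) : Representation ℂ Γ (n → ℂ) :=
  ((Matrix.toLinAlgEquiv' (R := ℂ) (n := n)).toAlgHom : Matrix n n ℂ →* ((n → ℂ) →ₗ[ℂ] (n → ℂ))).comp
    ((Units.coeHom _).comp ρ)

theorem rep_apply {Γ : Type} [Group Γ] {n : Type} [Fintype n] [DecidableEq n]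
    (ρ : Γ →* GL n ℂ) (γ : Γ) (v : n → ℂ) : rep ρ γ v = (ρ γ).1 *ᵥ v := rfl

/-- irreducibility, elementary form -/
def Irr {Γ : Type} [Group Γ] {n : Type} [Fintype n] [DecidableEq n] (ρ : Γ →* GL n ℂ) : Prop :=
  Nonempty n ∧ ∀ T : Submodule ℂ (n → ℂ), (∀ γ, ∀ v ∈ T, (ρ γ).1 *ᵥ v ∈ T) → T = ⊥ ∨ T = ⊤

section mrep

variable {Γ : Type} [Group Γ] {S : Type} [AddCommGroup S] [Module ℂ S]
  [Module (MonoidAlgebra ℂ Γ) S] [IsScalarTower ℂ (MonoidAlgebra ℂ Γ) S]
  {a : Type} [Fintype a] [DecidableEq a]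

noncomputable def mrep (wb : Module.Basis a ℂ S) : Γ →* GL a ℂ :=
  ((((LinearMap.toMatrixAlgEquiv wb).toAlgHom : (S →ₗ[ℂ] S) →* Matrix a a ℂ).comp
    ((Algebra.lsmul ℂ ℂ S : MonoidAlgebra ℂ Γ →ₐ[ℂ] (S →ₗ[ℂ] S)) :
      MonoidAlgebra ℂ Γ →* (S →ₗ[ℂ] S))).comp (MonoidAlgebra.of ℂ Γ)).toHomUnits

theorem mrep_val (wb : Module.Basis a ℂ S) (γ : Γ) (i j : a) :
    (mrep wb γ).1 i j = wb.repr (MonoidAlgebra.of ℂ Γ γ • wb j) i := by
  simp [mrep, LinearMap.toMatrixAlgEquiv_apply]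

theorem mrep_smul (wb : Module.Basis a ℂ S) (γ : Γ) (k : a) :
    MonoidAlgebra.of ℂ Γ γ • wb k = ∑ j, (mrep wb γ).1 j k • wb j := by
  simp only [mrep_val]
  exact (wb.sum_repr _).symm

theorem mrep_equivFun (wb : Module.Basis a ℂ S) (γ : Γ) (s : S) :
    wb.equivFun (MonoidAlgebra.of ℂ Γ γ • s) = (mrep wb γ).1 *ᵥ wb.equivFun s := by
  have h : (wb.equivFun.toLinearMap ∘ₗ (Algebra.lsmul ℂ ℂ S (MonoidAlgebra.of ℂ Γ γ))) =
      ((mrep wb γ).1.mulVecLin) ∘ₗ wb.equivFun.toLinearMap := by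
    apply wb.ext
    intro k
    funext i
    simp only [LinearMap.comp_apply, LinearEquiv.coe_coe, Algebra.lsmul_coe, mulVecLin_apply,
      Module.Basis.equivFun_self]
    rw [Module.Basis.equivFun_apply, ← mrep_val]
    simp [Matrix.mulVec, dotProduct]
  have := congrArg (fun f => f s) h
  simpa using this

theorem irr_of_simple [IsSimpleModule (MonoidAlgebra ℂ Γ) S] (wb : Module.Basis a ℂ S) :
    Irr (mrep (Γ := Γ) wb) := by
  have hnt : Nontrivial S := IsSimpleModule.nontrivial (MonoidAlgebra ℂ Γ) S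
  refine ⟨?_, ?_⟩
  · exact wb.index_nonempty
  · intro T hT
    let T' : Submodule (MonoidAlgebra ℂ Γ) S :=
      { carrier := {s | wb.equivFun s ∈ T}
        add_mem' := by
          intro x y hx hy
          simp only [Set.mem_ofPred_eq, map_add] at *
          exact T.add_mem hx hy
        zero_mem' := by simp
        smul_mem' := by
          intro r x hx
          simp only [Set.mem_ofPred_eq] at *
          induction r using MonoidAlgebra.induction_linear with
          | zero => simp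
          | add f g hf hg => rw [add_smul, map_add]; exact T.add_mem hf hg
          | single γ c =>
            have : (MonoidAlgebra.single γ c : MonoidAlgebra ℂ Γ) = c • MonoidAlgebra.of ℂ Γ γ := by
              simp [MonoidAlgebra.of_apply]
            rw [this, smul_assoc, map_smul, mrep_equivFun]
            exact T.smul_mem _ (hT γ _ hx) }
    rcases eq_bot_or_eq_top T' with h | h
    · left
      rw [Submodule.eq_bot_iff]
      intro v hv
      have h1 : wb.equivFun.symm v ∈ T' := by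
        change wb.equivFun (wb.equivFun.symm v) ∈ T
        rw [LinearEquiv.apply_symm_apply]
        exact hv
      rw [h, Submodule.mem_bot] at h1
      exact (LinearEquiv.map_eq_zero_iff _).1 h1
    · right
      rw [Submodule.eq_top_iff']
      intro v
      have h1 : wb.equivFun.symm v ∈ T' := by rw [h]; trivial
      have h2 : wb.equivFun (wb.equivFun.symm v) ∈ T := h1
      rwa [LinearEquiv.apply_symm_apply] at h2

end mrep

/-- change of basis -/
theorem conj_of_basis {n : Type} [Fintype n] [DecidableEq n] (B : Module.Basis n ℂ (n → ℂ)) :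
    ∃ Q : GL n ℂ, ∀ A K : GL n ℂ, (∀ y, A.1 *ᵥ B y = ∑ z, K.1 z y • B z) → A = Q * K * Q⁻¹ := by
  let Q : GL n ℂ := ⟨(Pi.basisFun ℂ n).toMatrix B, B.toMatrix (Pi.basisFun ℂ n),
    Module.Basis.toMatrix_mul_toMatrix_flip _ _, Module.Basis.toMatrix_mul_toMatrix_flip _ _⟩
  refine ⟨Q, fun A K h => ?_⟩
  rw [eq_mul_inv_iff_mul_eq]
  apply Units.ext
  ext x y
  have h1 := congrFun (h y) x
  rw [Units.val_mul, Units.val_mul, Matrix.mul_apply, Matrix.mul_apply]
  have hQ : ∀ u v, Q.1 u v = B v u := fun u v => by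
    change (Pi.basisFun ℂ n).toMatrix B u v = B v u
    simp [Module.Basis.toMatrix_apply]
  simp only [hQ]
  rw [Matrix.mulVec, dotProduct] at h1
  rw [h1, Finset.sum_apply]
  refine Finset.sum_congr rfl fun z _ => ?_
  rw [Pi.smul_apply, smul_eq_mul, mul_comm]

/-- tensor product of matrix representations -/
noncomputable def kk {Γ₁ Γ₂ : Type} [Group Γ₁] [Group Γ₂] {a b n : Type} [Fintype a]
    [DecidableEq a] [Fintype b] [DecidableEq b] [Fintype n] [DecidableEq n] (h : a × b ≃ n)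
    (W : Γ₁ →* GL a ℂ) (U : Γ₂ →* GL b ℂ) : Γ₁ × Γ₂ →* GL n ℂ :=
  MonoidHom.toHomUnits
    { toFun := fun γ => Matrix.reindexAlgEquiv ℂ ℂ h
        (kroneckerMap (· * ·) (W γ.1).1 (U γ.2).1)
      map_one' := by simp
      map_mul' := by
        intro x y
        rw [← map_mul, ← mul_kronecker_mul]
        simp }

theorem kk_val {Γ₁ Γ₂ : Type} [Group Γ₁] [Group Γ₂] {a b n : Type} [Fintype a]
    [DecidableEq a] [Fintype b] [DecidableEq b] [Fintype n] [DecidableEq n] (h : a × b ≃ n)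
    (W : Γ₁ →* GL a ℂ) (U : Γ₂ →* GL b ℂ) (γ : Γ₁ × Γ₂) (x y : n) :
    (kk h W U γ).1 x y = (W γ.1).1 (h.symm x).1 (h.symm y).1 * (U γ.2).1 (h.symm x).2 (h.symm y).2 := by
  simp [kk]

theorem kk_det {Γ₁ Γ₂ : Type} [Group Γ₁] [Group Γ₂] {a b n : Type} [Fintype a]
    [DecidableEq a] [Fintype b] [DecidableEq b] [Fintype n] [DecidableEq n] (h : a × b ≃ n)
    (W : Γ₁ →* GL a ℂ) (U : Γ₂ →* GL b ℂ) (γ : Γ₁ × Γ₂) :
    (kk h W U γ).1.det = (W γ.1).1.det ^ Fintype.card b * (U γ.2).1.det ^ Fintype.card a := by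
  have : (kk h W U γ).1 = Matrix.reindexAlgEquiv ℂ ℂ h
        (kroneckerMap (· * ·) (W γ.1).1 (U γ.2).1) := rfl
  rw [this, Matrix.det_reindexAlgEquiv, det_kronecker]

theorem isotypic_decomp {R M : Type} [Ring R] [Algebra ℂ R] [AddCommGroup M] [Module ℂ M]
    [Module R M] [IsScalarTower ℂ R M] [Module.Finite ℂ M] (W0 : Submodule R M)
    [IsSimpleModule R W0] (h : isotypicComponent R M W0 = ⊤) :
    ∃ b : ℕ, Nonempty (M ≃ₗ[R] (Fin b → W0)) := by
  have hss : IsSemisimpleModule R M := by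
    rw [← sSup_simples_eq_top_iff_isSemisimpleModule, eq_top_iff, ← h]
    refine sSup_le_sSup ?_
    rintro m ⟨e⟩
    exact IsSimpleModule.congr e
  have hfin : Module.Finite R M := Module.Finite.of_restrictScalars_finite ℂ R M
  exact (IsIsotypicOfType.of_isotypicComponent_eq_top h).linearEquiv_fun

theorem schur {R S : Type} [Ring R] [Algebra ℂ R] [AddCommGroup S] [Module ℂ S]
    [Module R S] [IsScalarTower ℂ R S] [Module.Finite ℂ S] [IsSimpleModule R S]
    (g : S →ₗ[R] S) : ∃ c : ℂ, ∀ w, g w = c • w := by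
  obtain ⟨c, hc⟩ := (IsSimpleModule.algebraMap_end_bijective_of_isAlgClosed ℂ (A := R) (V := S)).2 g
  exact ⟨c, fun w => by rw [← hc]; rfl⟩

end Vale.Agent.P002
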