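import Vale.Agent.P002.Semi
import Vale.Agent.P002.Field

/-! Density of integral points for semisimple representations. -/

namespace Vale.Agent.P002

open Matrix

section

variable {Γ : Type} [Group Γ] {r : ℕ}

/-- a GL-valued homomorphism of determinant one as an SL-valued one -/
def sl (ρG : Γ →* GL (Fin r) ℂ) (hdet : ∀ γ, (ρG γ).1.det = 1) :
    Γ →* SpecialLinearGroup (Fin r) ℂ where
  toFun γ := ⟨(ρG γ).1, hdet γ⟩
  map_one' := by
    apply Subtype.ext
    simp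
  map_mul' x y := by
    apply Subtype.ext
    change (ρG (x * y)).1 = (ρG x).1 * (ρG y).1
    rw [map_mul]
    rfl

theorem sl_val (ρG : Γ →* GL (Fin r) ℂ) (hdet : ∀ γ, (ρG γ).1.det = 1) (γ : Γ) :
    (sl ρG hdet γ : Matrix (Fin r) (Fin r) ℂ) = (ρG γ).1 := rfl

theorem toGL_sl (ρG : Γ →* GL (Fin r) ℂ) (hdet : ∀ γ, (ρG γ).1.det = 1) (γ : Γ) :
    SpecialLinearGroup.toGL (sl ρG hdet γ) = ρG γ := Units.ext rfl

theorem conj_GL (hr : 0 < r) {F : (Γ →* SpecialLinearGroup (Fin r) ℂ) → ℂ}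
    (hF : ConjugationInvariant F) (G : GL (Fin r) ℂ) (ρ₁ ρ₂ : Γ →* SpecialLinearGroup (Fin r) ℂ)
    (h : ∀ γ, SpecialLinearGroup.toGL (ρ₂ γ) = G * SpecialLinearGroup.toGL (ρ₁ γ) * G⁻¹) :
    F ρ₂ = F ρ₁ := by
  obtain ⟨z, hz⟩ := IsAlgClosed.exists_pow_nat_eq G.1.det hr
  have hG0 : G.1.det ≠ 0 := ((Matrix.isUnit_iff_isUnit_det G.1).1 G.isUnit).ne_zero
  have hz0 : z ≠ 0 := by
    rintro rfl
    rw [zero_pow hr.ne'] at hz
    exact hG0 hz.symm
  let S : SpecialLinearGroup (Fin r) ℂ := ⟨z⁻¹ • G.1, by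
    rw [det_smul, Fintype.card_fin, _root_.inv_pow, hz, inv_mul_cancel₀ hG0]⟩
  apply hF S
  intro γ
  rw [eq_mul_inv_iff_mul_eq]
  apply Subtype.ext
  have h1 : (SpecialLinearGroup.toGL (ρ₂ γ) * G : GL (Fin r) ℂ) =
      G * SpecialLinearGroup.toGL (ρ₁ γ) := by
    rw [h γ]
    group
  have h2 := congrArg (fun g : GL (Fin r) ℂ => g.1) h1
  simp only [Units.val_mul] at h2
  have h3 : (ρ₂ γ : Matrix (Fin r) (Fin r) ℂ) * G.1 = G.1 * (ρ₁ γ : Matrix (Fin r) (Fin r) ℂ) := h2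
  change (ρ₂ γ : Matrix (Fin r) (Fin r) ℂ) * (z⁻¹ • G.1) = (z⁻¹ • G.1) * (ρ₁ γ : Matrix (Fin r) (Fin r) ℂ)
  rw [Matrix.mul_smul, Matrix.smul_mul, h3]

variable {s : ℕ} {a : Fin s → ℕ} (h : (Σ i, Fin (a i)) ≃ Fin r)

/-- block diagonal sum of representations -/
noncomputable def bd (τ : Reps Γ (fun i => Fin (a i))) : Γ →* GL (Fin r) ℂ :=
  (bg h).comp (MonoidHom.pi τ)

theorem bd_apply (τ : Reps Γ (fun i => Fin (a i))) (γ : Γ) :
    bd h τ γ = bg h (fun i => τ i γ) := rfl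

theorem bd_det {τ : Reps Γ (fun i => Fin (a i))} (hτ : ZZ (fun _ => 1) τ) (γ : Γ) :
    (bd h τ γ).1.det = 1 := by
  rw [bd_apply, bg_det]
  have := hτ γ
  simpa using this

theorem reg_ext (F : (Γ →* SpecialLinearGroup (Fin r) ℂ) → ℂ) (hF : F ∈ RegularFunctions Γ r) :
    ∃ F' ∈ Reg Γ (fun i => Fin (a i)), ∀ (τ : Reps Γ (fun i => Fin (a i)))
      (hτ : ZZ (fun _ => 1) τ), F' τ = F (sl (bd h τ) (bd_det h hτ)) := by
  unfold RegularFunctions at hF
  induction hF using Algebra.adjoin_induction with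
  | mem F hF =>
    obtain ⟨γ, x, y, rfl⟩ := hF
    by_cases hxy : (h.symm x).1 = (h.symm y).1
    · refine ⟨fun τ => (τ (h.symm x).1 γ).1 (h.symm x).2 (cast (by rw [hxy]) (h.symm y).2),
        Algebra.subset_adjoin (show _ ∈ gens Γ (fun i => Fin (a i)) from ⟨_, γ, _, _, rfl⟩), ?_⟩
      intro τ hτ
      dsimp only
      rw [sl_val, bd_apply, bg_val, blockDiagonal'_apply]
      rw [dif_pos hxy]
    · refine ⟨fun _ => 0, Subalgebra.zero_mem _, ?_⟩
      intro τ hτ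
      dsimp only
      rw [sl_val, bd_apply, bg_val, blockDiagonal'_apply]
      rw [dif_neg hxy]
  | algebraMap c =>
    exact ⟨algebraMap ℂ _ c, Subalgebra.algebraMap_mem _ c, fun τ hτ => rfl⟩
  | add F G _ _ h1 h2 =>
    obtain ⟨F', hF', h1⟩ := h1
    obtain ⟨G', hG', h2⟩ := h2
    exact ⟨F' + G', Subalgebra.add_mem _ hF' hG', fun τ hτ => by
      rw [Pi.add_apply, Pi.add_apply, h1 τ hτ, h2 τ hτ]⟩
  | mul F G _ _ h1 h2 =>
    obtain ⟨F', hF', h1⟩ := h1
    obtain ⟨G', hG', h2⟩ := h2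
    exact ⟨F' * G', Subalgebra.mul_mem _ hF' hG', fun τ hτ => by
      rw [Pi.mul_apply, Pi.mul_apply, h1 τ hτ, h2 τ hτ]⟩

end

theorem main {Γ : Type} [Group Γ] {r N : ℕ} (hrN : r ≤ N) {L : IntermediateField ℚ ℂ}
    (hD : Dense N L Γ) (F : (Γ →* SpecialLinearGroup (Fin r) ℂ) → ℂ)
    (hF : F ∈ RegularFunctions Γ r) (hinv : ConjugationInvariant F)
    (h0 : ∀ ρ, IntegralOver L ρ → F ρ = 0) (ρ : Γ →* SpecialLinearGroup (Fin r) ℂ)
    (hρ : Semisimple ρ) : F ρ = 0 := by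
  classical
  rcases Nat.eq_zero_or_pos r with hr | hr
  · subst hr
    exact h0 ρ fun γ i => i.elim0
  obtain ⟨s, a, h, σ, Q, hirr, hQ⟩ := semisimple_decomp ρ hρ
  obtain ⟨F', hF', hext⟩ := reg_ext h F hF
  have hσ : ZZ (fun _ => 1) σ := by
    intro γ
    have h1 : (SpecialLinearGroup.toGL (ρ γ)).1.det = 1 := (ρ γ).2
    rw [hQ γ, Units.val_mul, Units.val_mul, det_mul, det_mul, mul_comm, ← mul_assoc, ← det_mul,
      ← Units.val_mul, inv_mul_cancel, Units.val_one, det_one, one_mul, bg_det] at h1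
    simpa using h1
  have hcard : ∀ i, a i ≤ r := by
    intro i
    have h1 : Fintype.card (Σ i, Fin (a i)) = r := by
      rw [Fintype.card_congr h, Fintype.card_fin]
    rw [Fintype.card_sigma] at h1
    simp only [Fintype.card_fin] at h1
    rw [← h1]
    exact Finset.single_le_sum (f := fun i => a i) (fun _ _ => Nat.zero_le _) (Finset.mem_univ i)
  have key : F' σ = 0 := by
    refine hD (Fin s) (fun i => Fin (a i)) (fun _ => 1) (fun _ => one_pos) ?_ F' hF' ?_ ?_ σ hσ hirr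
    · intro i
      rw [Fintype.card_fin, one_mul]
      exact (hcard i).trans hrN
    · intro τ hτ g
      have hτ' : ZZ (fun _ => 1) (fun i => (MulAut.conj (g i)).toMonoidHom.comp (τ i)) := by
        intro γ
        rw [← hτ γ]
        refine Finset.prod_congr rfl fun i _ => ?_
        simp only [MonoidHom.comp_apply, MulEquiv.coe_toMonoidHom, MulAut.conj_apply,
          Units.val_mul, det_mul]
        rw [mul_comm, ← mul_assoc, ← det_mul, ← Units.val_mul, inv_mul_cancel, Units.val_one,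
          det_one, one_mul]
      rw [hext _ hτ', hext _ hτ]
      refine conj_GL hr hinv (bg h g) _ _ ?_
      intro γ
      rw [toGL_sl, toGL_sl, bd_apply, bd_apply, ← map_inv, ← map_mul, ← map_mul]
      rfl
    · intro τ hτ hI
      rw [hext _ hτ]
      apply h0
      intro γ x y
      rw [sl_val, bd_apply, bg_val, blockDiagonal'_apply]
      split_ifs with hxy
      · exact hI _ _ _ _
      · exact ⟨isIntegral_zero, zero_mem _⟩
  rw [hext σ hσ] at key
  rw [← key]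
  refine conj_GL hr hinv Q _ _ ?_
  intro γ
  rw [toGL_sl, bd_apply]
  exact hQ γ

/-- the class of groups -/
theorem dense_class (N : ℕ) {L : IntermediateField ℚ ℂ} (hL : Good N L) (k : ℕ) (m : Fin k → ℕ)
    (A : Type) [CommGroup A] [Finite A] (hA : Nat.card A ≤ N) (Γ : Type) [Group Γ]
    (φ : Γ ≃* A × ((j : Fin k) → FreeGroup (Fin (m j)))) : Dense N L Γ :=
  dense_congr φ.symm (dense_prod (dense_abelian hL A hA)
    (dense_pi N L k (fun j => FreeGroup (Fin (m j))) fun j => dense_free hL (Fin (m j))))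

end Vale.Agent.P002
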