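import Vale.Agent.P002.Main

/-! Representation-variety form of the density, closed under free products. -/

namespace Vale.Agent.P002

open Matrix

def RDense (N : ℕ) (L : IntermediateField ℚ ℂ) (Γ : Type) [Group Γ] : Prop :=
  ∀ (ι : Type) [Fintype ι] [DecidableEq ι] (n : ι → Type) [∀ i, Fintype (n i)]
    [∀ i, DecidableEq (n i)] (e : ι → ℕ), (∀ i, 0 < e i) →
    (∀ i, e i * Fintype.card (n i) ≤ N) → ∀ F ∈ Reg Γ n,
    (∀ ρ : Reps Γ n, ZZ e ρ → Intg L ρ → F ρ = 0) →
    ∀ ρ : Reps Γ n, ZZ e ρ → F ρ = 0

theorem RDense.dense {N : ℕ} {L : IntermediateField ℚ ℂ} {Γ : Type} [Group Γ]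
    (h : RDense N L Γ) : Dense N L Γ := by
  intro ι _ _ n _ _ e he heN F hF _ h0 ρ hρ _
  exact h ι n e he heN F hF h0 ρ hρ

theorem RDense.congr {N : ℕ} {L : IntermediateField ℚ ℂ} {Γ Γ' : Type} [Group Γ] [Group Γ']
    (φ : Γ ≃* Γ') (h1 : RDense N L Γ) : RDense N L Γ' := by
  intro ι _ _ n _ _ e he heN F hF h0 ρ hρ
  have key := h1 ι n e he heN (fun τ => F (fun i => (τ i).comp φ.symm.toMonoidHom)) ?_ ?_
    (fun i => (ρ i).comp φ.toMonoidHom) ?_
  · have : (fun i => ((ρ i).comp φ.toMonoidHom).comp φ.symm.toMonoidHom) = ρ := by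
      funext i
      ext1 γ
      simp
    simp only [this] at key
    exact key
  · clear h0
    unfold Reg at hF
    induction hF using Algebra.adjoin_induction with
    | mem F hF =>
      obtain ⟨i, γ, x, y, rfl⟩ := hF
      exact Algebra.subset_adjoin (show _ ∈ gens Γ n from ⟨i, φ.symm γ, x, y, rfl⟩)
    | algebraMap r => exact Subalgebra.algebraMap_mem _ r
    | add x y _ _ h1 h2 => exact Subalgebra.add_mem _ h1 h2
    | mul x y _ _ h1 h2 => exact Subalgebra.mul_mem _ h1 h2
  · intro τ hτ hI
    exact h0 _ (fun γ => hτ (φ.symm γ)) (fun i γ x y => hI i (φ.symm γ) x y)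
  · intro γ
    exact hρ (φ γ)

theorem rdense_int {N : ℕ} {L : IntermediateField ℚ ℂ} (hL : Good N L) (Γ : Type) [Group Γ]
    (φ : Γ ≃* Multiplicative ℤ) : RDense N L Γ := by
  have h : RDense N L (FreeGroup Unit) := by
    intro ι _ _ n _ _ e he heN F hF h0 ρ hρ
    exact free_dense hL e he heN F hF h0 ρ hρ
  exact h.congr ((FreeGroup.mulEquivIntOfUnique).trans φ.symm)

/-- diagonalisation of representations of finite abelian groups -/
theorem diag_abelian {A : Type} [CommGroup A] [Finite A] {n : Type} [Fintype n] [DecidableEq n]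
    (ρ : A →* GL n ℂ) : ∃ (Q : GL n ℂ) (χ : A → n → ℂˣ), Q.1.det = 1 ∧
      (∀ γ y, (χ γ y) ^ Nat.card A = 1) ∧ ∀ γ, ρ γ = Q * dg (χ γ) * Q⁻¹ := by
  classical
  have : Fintype A := Fintype.ofFinite A
  let τ : Representation ℂ A (n → ℂ) := rep ρ
  have hss : IsSemisimpleModule (MonoidAlgebra ℂ A) τ.asModule := inferInstance
  obtain ⟨s, a, B0, σ, hirr, hB⟩ := abs_ss (Γ := A) (M := τ.asModule)
  let h : (Σ i, Fin (a i)) ≃ n := (B0.map τ.asModuleEquiv).indexEquiv (Pi.basisFun ℂ n)
  obtain ⟨Q, hQ⟩ := conj_of_basis ((B0.map τ.asModuleEquiv).reindex h)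
  have hact : ∀ γ, ∀ v : τ.asModule, (ρ γ).1 *ᵥ (τ.asModuleEquiv v) =
      τ.asModuleEquiv (MonoidAlgebra.of ℂ A γ • v) := by
    intro γ v
    rw [Representation.asModuleEquiv_map_smul]
    simp only [Representation.asAlgebraHom_of]
    rfl
  have hsub : ∀ i, ∀ x y : Fin (a i), x = y := fun i => irr_comm (σ i) (hirr i)
  have hmul : ∀ i (k : Fin (a i)) (M M' : Matrix (Fin (a i)) (Fin (a i)) ℂ),
      (M * M') k k = M k k * M' k k := by
    intro i k M M'
    rw [Matrix.mul_apply, Finset.sum_eq_single k]
    · intro b _ hb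
      exact absurd (hsub i b k) hb
    · intro hk
      exact absurd (Finset.mem_univ k) hk
  let χ : A → n → ℂˣ := fun γ y =>
    ⟨(σ (h.symm y).1 γ).1 (h.symm y).2 (h.symm y).2,
      (σ (h.symm y).1 γ)⁻¹.1 (h.symm y).2 (h.symm y).2,
      by rw [← hmul, ← Units.val_mul, mul_inv_cancel, Units.val_one, Matrix.one_apply_eq],
      by rw [← hmul, ← Units.val_mul, inv_mul_cancel, Units.val_one, Matrix.one_apply_eq]⟩
  have hpow : ∀ y γ (k : ℕ), (χ (γ ^ k) y) = (χ γ y) ^ k := by
    intro y γ k
    apply Units.ext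
    rw [Units.val_pow_eq_pow_val]
    change (σ (h.symm y).1 (γ ^ k)).1 (h.symm y).2 (h.symm y).2 =
      ((σ (h.symm y).1 γ).1 (h.symm y).2 (h.symm y).2) ^ k
    induction k with
    | zero => simp
    | succ k ih => rw [pow_succ, map_mul, Units.val_mul, hmul, ih, pow_succ]
  have hχ1 : ∀ γ y, (χ γ y) ^ Nat.card A = 1 := by
    intro γ y
    rw [← hpow, pow_card_eq_one']
    apply Units.ext
    change (σ (h.symm y).1 1).1 (h.symm y).2 (h.symm y).2 = 1
    simp
  have hρ : ∀ γ, ρ γ = Q * dg (χ γ) * Q⁻¹ := by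
    intro γ
    apply hQ
    intro y
    obtain ⟨⟨i, k⟩, rfl⟩ := h.surjective y
    simp only [Module.Basis.reindex_apply, Equiv.symm_apply_apply, Module.Basis.map_apply]
    rw [hact, hB, Finset.sum_eq_single k, Finset.sum_eq_single (h ⟨i, k⟩)]
    · rw [dg_val, diagonal_apply_eq]
      have hχx : ∀ x : (Σ i, Fin (a i)), ((χ γ (h x) : ℂˣ) : ℂ) = (σ x.1 γ).1 x.2 x.2 := by
        intro x
        have hx : h.symm (h x) = x := h.symm_apply_apply x
        change (σ (h.symm (h x)).1 γ).1 (h.symm (h x)).2 (h.symm (h x)).2 = (σ x.1 γ).1 x.2 x.2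
        rw [hx]
      rw [hχx, Equiv.symm_apply_apply]
      exact τ.asModuleEquiv.map_smul _ _
    · intro b _ hb
      rw [dg_val, diagonal_apply_ne _ hb, zero_smul]
    · intro hk
      exact absurd (Finset.mem_univ _) hk
    · intro b _ hb
      exact absurd (hsub i b k) hb
    · intro hk
      exact absurd (Finset.mem_univ k) hk
  -- rescale Q to have determinant one
  by_cases hn : Nonempty n
  · have hcard : 0 < Fintype.card n := Fintype.card_pos
    obtain ⟨z, hz⟩ := IsAlgClosed.exists_pow_nat_eq Q.1.det hcard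
    have hQ0 : Q.1.det ≠ 0 := ((Matrix.isUnit_iff_isUnit_det Q.1).1 Q.isUnit).ne_zero
    have hz0 : z ≠ 0 := by
      rintro rfl
      rw [zero_pow hcard.ne'] at hz
      exact hQ0 hz.symm
    let C : GL n ℂ := dg (fun _ => (Units.mk0 z hz0)⁻¹)
    have hC : C.1 = z⁻¹ • (1 : Matrix n n ℂ) := by
      change diagonal (fun _ => (((Units.mk0 z hz0)⁻¹ : ℂˣ) : ℂ)) = _
      rw [Matrix.smul_one_eq_diagonal]
      simp
    have hcomm : ∀ g : GL n ℂ, C * g = g * C := by
      intro g
      apply Units.ext
      rw [Units.val_mul, Units.val_mul, hC, Matrix.smul_mul, Matrix.mul_smul, Matrix.one_mul,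
        Matrix.mul_one]
    refine ⟨Q * C, χ, ?_, hχ1, ?_⟩
    · rw [Units.val_mul, det_mul, hC, det_smul, det_one, mul_one, _root_.inv_pow, hz,
        mul_inv_cancel₀ hQ0]
    · intro γ
      rw [hρ γ, _root_.mul_inv_rev, mul_assoc Q C, hcomm, ← mul_assoc Q, mul_assoc (Q * dg (χ γ)) C,
        ← mul_assoc C, mul_inv_cancel, one_mul]
  · have : IsEmpty n := not_nonempty_iff.1 hn
    exact ⟨Q, χ, det_isEmpty, hχ1, hρ⟩

theorem rdense_abelian {N : ℕ} {L : IntermediateField ℚ ℂ} (hL : Good N L) (A : Type)
    [CommGroup A] [Finite A] (hA : Nat.card A ≤ N) : RDense N L A := by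
  intro ι _ _ n _ _ e he heN F hF h0 ρ hρ
  choose Q χ hQdet hχ hρQ using fun i => diag_abelian (ρ i)
  let Θ : GG ι Unit n → Reps A n := fun g i =>
    (MulAut.conj (g (i, ()) * (Q i)⁻¹)).toMonoidHom.comp (ρ i)
  have hΘ : ∀ g i γ, Θ g i γ = g (i, ()) * dg (χ i γ) * (g (i, ()))⁻¹ := by
    intro g i γ
    change g (i, ()) * (Q i)⁻¹ * ρ i γ * (g (i, ()) * (Q i)⁻¹)⁻¹ = _
    rw [hρQ i γ]
    group
  have hpos : 0 < Nat.card A := Nat.card_pos
  have hFT : (fun g => F (Θ g)) ∈ Algebra.adjoin ℂ (TT (ι := ι) (α := Unit) n) := by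
    clear h0
    unfold Reg at hF
    induction hF using Algebra.adjoin_induction with
    | mem F hF =>
      obtain ⟨i, γ, x, y, rfl⟩ := hF
      have : (fun g : GG ι Unit n => ((Θ g) i γ).1 x y) =
          ∑ z, ((χ i γ z : ℂˣ) : ℂ) • ((fun g : GG ι Unit n => (g (i, ())).1 x z) *
            (fun g : GG ι Unit n => ((g (i, ()))⁻¹).1 z y)) := by
        funext g
        rw [hΘ, Units.val_mul, Units.val_mul, Matrix.mul_apply, Finset.sum_apply]
        refine Finset.sum_congr rfl fun z _ => ?_
        rw [dg_val, Matrix.mul_diagonal]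
        simp only [Pi.smul_apply, Pi.mul_apply, smul_eq_mul]
        ring
      dsimp only
      rw [this]
      exact Subalgebra.sum_mem _ fun z _ => Subalgebra.smul_mem _
        (Subalgebra.mul_mem _ (TT_ent (i, ()) x z) (TT_inv (i, ()) z y)) _
    | algebraMap r => exact Subalgebra.algebraMap_mem _ r
    | add x y _ _ h1 h2 => exact Subalgebra.add_mem _ h1 h2
    | mul x y _ _ h1 h2 => exact Subalgebra.mul_mem _ h1 h2
  let g0 : GG ι Unit n := fun k => Q k.1
  have hΘ0 : Θ g0 = ρ := by
    funext i
    ext1 γ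
    rw [hΘ, hρQ i γ]
  have hg0 : g0 ∈ clos (Algebra.adjoin ℂ (TT n)) (HH (ι := ι) (α := Unit) (n := n) L e) TT_L TT_R := by
    apply clos_all hL e he heN
    intro a
    simp [g0, hQdet]
  have := hg0 (fun g => F (Θ g)) hFT ?_
  · simpa [hΘ0] using this
  · rintro g ⟨h1, h2, h3⟩
    apply h0
    · intro γ
      rw [← hρ γ]
      refine Finset.prod_congr rfl fun i _ => ?_
      have e1 : (Θ g i γ).1.det = (dg (χ i γ)).1.det := by
        rw [hΘ, Units.val_mul, Units.val_mul, det_mul, det_mul, mul_comm, ← mul_assoc, ← det_mul,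
          ← Units.val_mul, inv_mul_cancel, Units.val_one, det_one, one_mul]
      have e2 : (ρ i γ).1.det = (dg (χ i γ)).1.det := by
        rw [hρQ, Units.val_mul, Units.val_mul, det_mul, det_mul, mul_comm, ← mul_assoc, ← det_mul,
          ← Units.val_mul, inv_mul_cancel, Units.val_one, det_one, one_mul]
      rw [e1, e2]
    · intro i γ x y
      rw [hΘ, Units.val_mul, Units.val_mul]
      refine mat_mul_mem (mat_mul_mem (h1 (i, ())) ?_) (h2 (i, ())) x y
      intro x y
      rw [dg_val]
      by_cases hxy : x = y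
      · subst hxy
        rw [diagonal_apply_eq]
        have h4 : ((χ i γ x : ℂˣ) : ℂ) ^ Nat.card A = 1 := by
          have := congrArg (fun u : ℂˣ => (u : ℂ)) (hχ i γ x)
          simpa using this
        exact ⟨root_integral hpos h4, hL.root _ _ hpos hA h4⟩
      · rw [diagonal_apply_ne _ hxy]
        exact Subring.zero_mem _

/-- closure under free products -/
theorem rdense_coprod {N : ℕ} {L : IntermediateField ℚ ℂ} {α : Type} [Finite α]
    (G : α → Type) [∀ a, Group (G a)] (hG : ∀ a, RDense N L (G a)) :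
    RDense N L (Monoid.CoprodI G) := by
  classical
  have : Fintype α := Fintype.ofFinite α
  intro ι _ _ n _ _ e he heN F hF h0
  -- one factor at a time
  have key : ∀ S : Finset α, ∀ ρ : Reps (Monoid.CoprodI G) n, ZZ e ρ →
      (∀ a, a ∉ S → ∀ i (γ : G a) x y, (ρ i (Monoid.CoprodI.of γ)).1 x y ∈ OO L) → F ρ = 0 := by
    intro S
    induction S using Finset.induction_on with
    | empty =>
      intro ρ hρ hint
      apply h0 ρ hρ
      intro i γ
      induction γ using Monoid.CoprodI.induction_on with
      | one =>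
        intro x y
        rw [map_one]
        exact mat_one_mem x y
      | of a γ =>
        intro x y
        exact hint a (by simp) i γ x y
      | mul γ δ h1 h2 =>
        intro x y
        rw [map_mul, Units.val_mul]
        exact mat_mul_mem h1 h2 x y
    | insert a0 S ha0 ih =>
      intro ρ hρ hint
      let up : Reps (G a0) n → Reps (Monoid.CoprodI G) n := fun τ i =>
        Monoid.CoprodI.lift (Function.update (fun a => (ρ i).comp Monoid.CoprodI.of) a0 (τ i))
      have hup0 : ∀ τ i (γ : G a0), up τ i (Monoid.CoprodI.of γ) = τ i γ := by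
        intro τ i γ
        simp only [up, Monoid.CoprodI.lift_of, Function.update_self]
      have hup1 : ∀ τ i a (ha : a ≠ a0) (γ : G a), up τ i (Monoid.CoprodI.of γ) =
          ρ i (Monoid.CoprodI.of γ) := by
        intro τ i a ha γ
        simp only [up, Monoid.CoprodI.lift_of, Function.update_of_ne ha, MonoidHom.comp_apply]
      have hupρ : up (fun i => (ρ i).comp Monoid.CoprodI.of) = ρ := by
        funext i
        apply Monoid.CoprodI.ext_hom
        intro a
        apply MonoidHom.ext
        intro γ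
        change up (fun i => (ρ i).comp (Monoid.CoprodI.of : G a0 →* Monoid.CoprodI G)) i
          (Monoid.CoprodI.of γ) = ρ i (Monoid.CoprodI.of γ)
        by_cases ha : a = a0
        · subst ha
          exact hup0 (fun i => (ρ i).comp Monoid.CoprodI.of) i γ
        · exact hup1 (fun i => (ρ i).comp Monoid.CoprodI.of) i a ha γ
      have hZ : ∀ τ, ZZ e τ → ZZ e (up τ) := by
        intro τ hτ γ
        induction γ using Monoid.CoprodI.induction_on with
        | one => simp
        | of a γ =>
          by_cases ha : a = a0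
          · subst ha
            simp only [hup0]
            exact hτ γ
          · simp only [hup1 τ _ a ha]
            exact hρ _
        | mul γ δ h1 h2 =>
          simp only [map_mul, Units.val_mul, det_mul, mul_pow, Finset.prod_mul_distrib, h1, h2,
            mul_one]
      have hreg : (fun τ => F (up τ)) ∈ Reg (G a0) n := by
        have hent : ∀ i (γ : Monoid.CoprodI G), (∀ x y, (fun τ => (up τ i γ).1 x y) ∈
            Reg (G a0) n) := by
          intro i γ
          induction γ using Monoid.CoprodI.induction_on with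
          | one =>
            intro x y
            simp only [map_one, Units.val_one]
            exact Subalgebra.algebraMap_mem _ ((1 : Matrix (n i) (n i) ℂ) x y)
          | of a γ =>
            intro x y
            by_cases ha : a = a0
            · subst ha
              simp only [hup0]
              exact Algebra.subset_adjoin (show _ ∈ gens (G a) n from ⟨i, γ, x, y, rfl⟩)
            · simp only [hup1 _ i a ha]
              exact Subalgebra.algebraMap_mem _ ((ρ i (Monoid.CoprodI.of γ)).1 x y)
          | mul γ δ h1 h2 =>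
            intro x y
            have : (fun τ => (up τ i (γ * δ)).1 x y) =
                ∑ z, (fun τ => (up τ i γ).1 x z) * (fun τ => (up τ i δ).1 z y) := by
              funext τ
              simp only [map_mul, Units.val_mul, Matrix.mul_apply, Finset.sum_apply, Pi.mul_apply]
            rw [this]
            exact Subalgebra.sum_mem _ fun z _ => Subalgebra.mul_mem _ (h1 x z) (h2 z y)
        clear h0 ih
        unfold Reg at hF
        induction hF using Algebra.adjoin_induction with
        | mem F hF =>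
          obtain ⟨i, γ, x, y, rfl⟩ := hF
          exact hent i γ x y
        | algebraMap r => exact Subalgebra.algebraMap_mem _ r
        | add x y _ _ h1 h2 => exact Subalgebra.add_mem _ h1 h2
        | mul x y _ _ h1 h2 => exact Subalgebra.mul_mem _ h1 h2
      have := hG a0 ι n e he heN (fun τ => F (up τ)) hreg ?_
        (fun i => (ρ i).comp Monoid.CoprodI.of) (fun γ => hρ _)
      · simpa only [hupρ] using this
      · intro τ hτ hI
        apply ih _ (hZ τ hτ)
        intro a ha i γ x y
        by_cases haa : a = a0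
        · subst haa
          rw [hup0]
          exact hI i γ x y
        · rw [hup1 τ i a haa]
          exact hint a (by simp [haa, ha]) i γ x y
  intro ρ hρ
  exact key Finset.univ ρ hρ (fun a ha => absurd (Finset.mem_univ a) ha)

end Vale.Agent.P002
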