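import Vale.Agent.P002.Dense
import Vale.Agent.P002.Defs

/-! Semisimple representations are block diagonal sums of irreducible ones. -/

namespace Vale.Agent.P002

open Matrix

theorem det_bd {s : ℕ} (a : Fin s → Type) [∀ i, Fintype (a i)] [∀ i, DecidableEq (a i)]
    (d : (i : Fin s) → Matrix (a i) (a i) ℂ) :
    (blockDiagonal' d).det = ∏ i, (d i).det := by
  rw [(blockTriangular_blockDiagonal' d).det_fintype]
  refine Finset.prod_congr rfl fun k _ => ?_
  let e : a k ≃ {x : (Σ i, a i) // x.1 = k} :=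
    { toFun := fun l => ⟨⟨k, l⟩, rfl⟩
      invFun := fun x => x.2 ▸ x.1.2
      left_inv := fun l => rfl
      right_inv := by
        rintro ⟨⟨i, l⟩, h⟩
        subst h
        rfl }
  rw [← det_submatrix_equiv_self e]
  congr 1
  ext x y
  simp [toSquareBlock, toSquareBlockProp, e, blockDiagonal'_apply]

/-- block diagonal group homomorphism -/
noncomputable def bg {ι m : Type} [Fintype ι] [DecidableEq ι] {n : ι → Type} [∀ i, Fintype (n i)]
    [∀ i, DecidableEq (n i)] [Fintype m] [DecidableEq m] (h : (Σ i, n i) ≃ m) :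
    ((i : ι) → GL (n i) ℂ) →* GL m ℂ :=
  MonoidHom.toHomUnits
    { toFun := fun g => Matrix.reindexAlgEquiv ℂ ℂ h (blockDiagonal' fun i => (g i).1)
      map_one' := by
        have : (fun i => ((1 : (i : ι) → GL (n i) ℂ) i).1) = (fun i => (1 : Matrix (n i) (n i) ℂ)) := rfl
        rw [this]
        change Matrix.reindexAlgEquiv ℂ ℂ h (blockDiagonal' (1 : (i : ι) → Matrix (n i) (n i) ℂ)) = 1
        rw [blockDiagonal'_one, map_one]
      map_mul' := by
        intro x y
        rw [← map_mul, ← blockDiagonal'_mul]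
        rfl }

theorem bg_val {ι m : Type} [Fintype ι] [DecidableEq ι] {n : ι → Type} [∀ i, Fintype (n i)]
    [∀ i, DecidableEq (n i)] [Fintype m] [DecidableEq m] (h : (Σ i, n i) ≃ m)
    (g : (i : ι) → GL (n i) ℂ) (x y : m) :
    (bg h g).1 x y = blockDiagonal' (fun i => (g i).1) (h.symm x) (h.symm y) := by
  simp [bg]

theorem bg_det {s : ℕ} {m : Type} {n : Fin s → Type} [∀ i, Fintype (n i)]
    [∀ i, DecidableEq (n i)] [Fintype m] [DecidableEq m] (h : (Σ i, n i) ≃ m)
    (g : (i : Fin s) → GL (n i) ℂ) : (bg h g).1.det = ∏ i, (g i).1.det := by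
  have : (bg h g).1 = Matrix.reindexAlgEquiv ℂ ℂ h (blockDiagonal' fun i => (g i).1) := rfl
  rw [this, Matrix.det_reindexAlgEquiv, det_bd]

theorem abs_ss {Γ M : Type} [Group Γ] [AddCommGroup M] [Module ℂ M]
    [Module (MonoidAlgebra ℂ Γ) M] [IsScalarTower ℂ (MonoidAlgebra ℂ Γ) M] [Module.Finite ℂ M]
    [IsSemisimpleModule (MonoidAlgebra ℂ Γ) M] :
    ∃ (s : ℕ) (a : Fin s → ℕ) (B : Module.Basis (Σ i, Fin (a i)) ℂ M)
      (σ : Reps Γ (fun i => Fin (a i))), (∀ i, Irr (σ i)) ∧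
      ∀ γ i k, MonoidAlgebra.of ℂ Γ γ • B ⟨i, k⟩ = ∑ l, (σ i γ).1 l k • B ⟨i, l⟩ := by
  classical
  have hfin : Module.Finite (MonoidAlgebra ℂ Γ) M :=
    Module.Finite.of_restrictScalars_finite ℂ (MonoidAlgebra ℂ Γ) M
  obtain ⟨s, S, e0, hs⟩ := IsSemisimpleModule.exists_linearEquiv_fin_dfinsupp (MonoidAlgebra ℂ Γ) M
  let e : M ≃ₗ[MonoidAlgebra ℂ Γ] ((i : Fin s) → S i) :=
    e0.trans (DirectSum.linearEquivFunOnFintype (MonoidAlgebra ℂ Γ) (Fin s) (fun i => S i))
  have hfinS : ∀ i, Module.Finite ℂ (S i) := fun i =>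
    Module.Finite.of_injective ((S i).subtype.restrictScalars ℂ) (Submodule.injective_subtype (S i))
  let wb := fun i => Module.finBasis ℂ (S i)
  let B : Module.Basis (Σ i, Fin (Module.finrank ℂ (S i))) ℂ M :=
    (Pi.basis wb).map (e.restrictScalars ℂ).symm
  have hB : ∀ i k, B ⟨i, k⟩ = e.symm (Pi.single i (wb i k)) := by
    intro i k
    simp only [B, Module.Basis.map_apply]
    rw [Pi.basis_apply]
    rfl
  refine ⟨s, fun i => Module.finrank ℂ (S i), B, fun i => mrep (wb i), fun i => ?_, ?_⟩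
  · have := hs i
    exact irr_of_simple (wb i)
  · intro γ i k
    simp only [hB]
    rw [← map_smul]
    have e3 : (MonoidAlgebra.of ℂ Γ γ) • (Pi.single i (wb i k) : (i : Fin s) → S i) =
        ∑ l, (mrep (wb i) γ).1 l k • (Pi.single i (wb i l) : (i : Fin s) → S i) := by
      rw [← Pi.single_smul, mrep_smul]
      funext j
      rw [Finset.sum_apply]
      by_cases hj : j = i
      · subst hj
        simp
      · simp [Pi.single_eq_of_ne hj]
    rw [e3, map_sum]
    exact Finset.sum_congr rfl fun l _ => (e.symm.toLinearMap.restrictScalars ℂ).map_smul _ _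

/-- semisimple representations are sums of irreducible ones -/
theorem semisimple_decomp {Γ : Type} [Group Γ] {r : ℕ} (ρ : Γ →* SpecialLinearGroup (Fin r) ℂ)
    (hρ : Semisimple ρ) :
    ∃ (s : ℕ) (a : Fin s → ℕ) (h : (Σ i, Fin (a i)) ≃ Fin r) (σ : Reps Γ (fun i => Fin (a i)))
      (Q : GL (Fin r) ℂ), (∀ i, Irr (σ i)) ∧
      ∀ γ, SpecialLinearGroup.toGL (ρ γ) = Q * bg h (fun i => σ i γ) * Q⁻¹ := by
  classical
  let ρG : Γ →* GL (Fin r) ℂ := SpecialLinearGroup.toGL.comp ρ
  have hv : ∀ γ, (ρG γ).1 = (ρ γ : Matrix (Fin r) (Fin r) ℂ) := fun γ => rfl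
  let τ : Representation ℂ Γ (Fin r → ℂ) := rep ρG
  have hss : IsSemisimpleModule (MonoidAlgebra ℂ Γ) τ.asModule := by
    rw [← Representation.isSemisimpleRepresentation_iff_isSemisimpleModule_asModule]
    refine ⟨fun T => ?_⟩
    obtain ⟨T', hT', hc⟩ := hρ T.toSubmodule (fun γ v hv => T.apply_mem_toSubmodule γ hv)
    refine ⟨⟨T', fun γ v hv => hT' γ v hv⟩, ?_⟩
    rw [isCompl_iff, disjoint_iff, codisjoint_iff]
    constructor
    · apply Subrepresentation.toSubmodule_injective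
      exact hc.inf_eq_bot
    · apply Subrepresentation.toSubmodule_injective
      exact hc.sup_eq_top
  obtain ⟨s, a, B0, σ, hirr, hB⟩ := abs_ss (Γ := Γ) (M := τ.asModule)
  let h : (Σ i, Fin (a i)) ≃ Fin r := (B0.map τ.asModuleEquiv).indexEquiv (Pi.basisFun ℂ (Fin r))
  obtain ⟨Q, hQ⟩ := conj_of_basis ((B0.map τ.asModuleEquiv).reindex h)
  refine ⟨s, a, h, σ, Q, hirr, fun γ => ?_⟩
  apply hQ
  intro y
  obtain ⟨⟨i, k⟩, rfl⟩ := h.surjective y
  rw [← h.sum_comp, Fintype.sum_sigma]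
  simp only [Module.Basis.reindex_apply, Equiv.symm_apply_apply, bg_val, Module.Basis.map_apply]
  have hact : ∀ v : τ.asModule, (SpecialLinearGroup.toGL (ρ γ)).1 *ᵥ (τ.asModuleEquiv v) =
      τ.asModuleEquiv (MonoidAlgebra.of ℂ Γ γ • v) := by
    intro v
    rw [Representation.asModuleEquiv_map_smul]
    simp only [Representation.asAlgebraHom_of]
    rfl
  rw [hact, hB, map_sum, Finset.sum_eq_single i]
  · refine Finset.sum_congr rfl fun l _ => ?_
    rw [blockDiagonal'_apply_eq]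
    exact map_smul _ _ _
  · intro j _ hj
    apply Finset.sum_eq_zero
    intro l _
    rw [blockDiagonal'_apply_ne _ _ _ hj, zero_smul]
  · intro hi
    exact absurd (Finset.mem_univ i) hi

end Vale.Agent.P002
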